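import Vale.Agent.P072.Near

/-! Upper and lower bounds for `x` in terms of a near-maximiser. -/

namespace Vale.Agent.P072

open Finset

namespace Data

variable {ι : Type} [Fintype ι] [DecidableEq ι] (D : Data ι)

lemma Full.raise_val {ρ : ι → ℕ} {w : ι → ℝ} {e : ℕ → Bool} (h : D.Full ρ w e) {a b : ι}
    (ha : First ρ w a) (hab : w a = w b) {v : ℝ} {c : Bool}
    (hok : D.Ok ρ w (Function.update e (ρ a) c) (ρ a) v) (hv : ∀ j, ρ j < ρ a → v ≤ w j) :
    D.Val (ρ b + 1) ρ (fun i => if w i = w a then v else w i) (Function.update e (ρ a) c) := by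
  have hpre : ∀ j, ρ j < ρ a → w j ≠ w a := fun j hj hc => absurd (ha j hc) (by omega)
  intro i hi
  have hi' : w a ≤ w i := hab ▸ h.anti D (by omega)
  refine ⟨fun j hj => ?_, ?_⟩
  · have hij := h.anti D hj.le
    by_cases h1 : w i = w a
    · by_cases h2 : w j = w a
      · simp [h1, h2]
      · simp only [h1, h2, if_true, if_false]
        exact hv j (h.lt_of_lt D (lt_of_le_of_ne (hi'.trans hij) (Ne.symm h2)))
    · have h2 : w j ≠ w a := fun hc => h1 (le_antisymm (hc ▸ hij) hi')
      simp only [h1, h2, if_false]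
      exact hij
  · rcases lt_trichotomy (ρ i) (ρ a) with hlt | heq | hgt
    · simp only [hpre i hlt, if_false]
      exact D.Ok_congr (fun _ => Iff.rfl) (fun j hj => by simp [hpre j (by omega)])
        (fun t ht => (Function.update_of_ne (by omega) _ _).symm) (h.2.2 i (h.2.1 i)).2
    · rw [h.1 heq]
      simp only [if_true]
      exact D.Ok_congr (fun _ => Iff.rfl) (fun j hj => by simp [hpre j hj])
        (fun _ _ => rfl) hok
    · have hia : w i = w a := le_antisymm (h.anti D hgt.le) hi'
      have hcr := h.crit_of_tie D hgt hia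
      refine ⟨fun _ => ?_, fun h' => ?_⟩
      · have := D.mem_Pt (fun i => if w i = w a then v else w i) (h.2.1 i) hgt
        simpa [hia] using this
      · rw [Function.update_of_ne (by omega), hcr] at h'
        exact absurd h' (by simp)

lemma Good.raise {x : ι → ℝ} (hx : ∀ i, 0 < x i) {τ : ℝ} {ρ : ι → ℕ} {w : ι → ℝ}
    {e : ℕ → Bool} (h : D.Good x τ ρ w e) {a : ι} (ha : First ρ w a) {v : ℝ} {c : Bool}
    (hok : D.Ok ρ w (Function.update e (ρ a) c) (ρ a) v) (hv : ∀ j, ρ j < ρ a → v ≤ w j)
    (hav : w a ≤ v) {Y : ℝ} (hY0 : 0 ≤ Y)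
    (hY : ∀ j, w j = w a → D.cost (Function.update e (ρ a) c) (ρ j) v ≤ Y)
    (hlow : ∀ j, w j < w a → x j ≤ Real.exp (w a)) {i : ι} (hi : w i = w a) :
    x i * (v - w a) ≤ τ + D.n * Y + D.n * (D.n * D.top + 1) * Real.exp (w a) := by
  obtain ⟨b, hb, hbl⟩ := exists_last ρ w a
  have hV := h.1.raise_val D ha hb.symm hok hv
  have hlt : ∀ j, ρ b + 1 ≤ ρ j → w j < w a := fun j hj =>
    lt_of_le_of_ne (hb ▸ h.1.anti D (by omega)) fun hc => by
      have := hbl j (hc.trans hb.symm); omega
  have hc := h.cmp D hx (h.1.2.1 b) hV le_rfl (fun i j hi hj => by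
      have h1 := hlt i hi
      have h2 : w a ≤ w j := hb ▸ h.1.anti D (by omega)
      split_ifs <;> linarith) (Real.exp_pos (w a)).le
    (fun j hj => ⟨hlow j (hlt j hj), Real.exp_le_exp.2 (hlt j hj).le⟩)
  have key : ∀ j, (if j = i then x i * (v - w a) else 0) - Y ≤
      (if ρ j < ρ b + 1 then (x j * ((if w j = w a then v else w j) - w j) -
        D.cost (Function.update e (ρ a) c) (ρ j) (if w j = w a then v else w j) +
        D.cost e (ρ j) (w j)) else 0) := by
    intro j
    by_cases h1 : w j = w a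
    · have h2 : ρ j < ρ b + 1 := by have := hbl j (h1.trans hb.symm); omega
      have h3 := hY j h1
      have h4 := D.cost_pos e (ρ j) (w j)
      have h5 : 0 ≤ x j * (v - w a) := mul_nonneg (hx j).le (by linarith)
      simp only [h1, h2, if_true] at h4 ⊢
      split_ifs with h6
      · subst h6; linarith
      · linarith
    · have h6 : j ≠ i := fun hc => h1 (hc ▸ hi)
      simp only [h1, h6, if_false]
      split_ifs with h2
      · have h7 : w a ≤ w j := hb ▸ h.1.anti D (by omega)
        have h8 := h.1.lt_of_lt D (lt_of_le_of_ne h7 (Ne.symm h1))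
        rw [D.cost_congr (e := Function.update e (ρ a) c) (e' := e)
          (fun t ht => Function.update_of_ne (by omega) _ _)]
        linarith
      · linarith
  have hsum := sum_le_sum fun j (_ : j ∈ univ) => key j
  rw [sum_sub_distrib, sum_ite_eq' univ i, if_pos (mem_univ _), sum_const, card_univ,
    nsmul_eq_mul] at hsum
  have hcard : (Fintype.card ι : ℝ) ≤ D.n := by exact_mod_cast D.card_le
  have : (Fintype.card ι : ℝ) * Y ≤ D.n * Y := mul_le_mul_of_nonneg_right hcard hY0
  rw [zero_add] at hc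
  linarith

lemma big_up : 2 * (6 * (D.n : ℝ) + D.n * (D.n * D.top + 1)) ≤ Real.exp D.B := by
  have h := D.B_big
  have ht := D.top_pos
  have hn : (0 : ℝ) ≤ D.n := Nat.cast_nonneg _
  change 2 * ((D.n : ℝ) + 1) * ((D.n + 2) * (D.top + 1) + 6) < _ at h
  nlinarith [mul_nonneg hn hn, mul_nonneg hn ht.le, mul_nonneg (mul_nonneg hn hn) ht.le]

lemma big_low : 2 * (1 / 2 + (D.top + 1) + D.n * (D.top + 1 + D.n * D.top + 1)) <
    Real.exp D.B := by
  have h := D.B_big
  have ht := D.top_pos
  have hn : (0 : ℝ) ≤ D.n := Nat.cast_nonneg _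
  change 2 * ((D.n : ℝ) + 1) * ((D.n + 2) * (D.top + 1) + 6) < _ at h
  nlinarith [mul_nonneg hn hn, mul_nonneg hn ht.le, mul_nonneg (mul_nonneg hn hn) ht.le]

lemma exp_add_one_le (t : ℝ) : Real.exp (t + 1) ≤ 3 * Real.exp t := by
  rw [Real.exp_add, mul_comm]
  have := Real.exp_one_lt_d9
  have := Real.exp_pos t
  nlinarith

/-- Upper bound for one level, given the bound for the lower levels. -/
lemma Good.upper_step {x : ι → ℝ} (hx : ∀ i, 0 < x i) {τ : ℝ} (hτ : ∀ i, τ ≤ x i / 2)
    {ρ : ι → ℕ} {w : ι → ℝ} {e : ℕ → Bool} (h : D.Good x τ ρ w e) {a : ι} (ha : First ρ w a)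
    (hlow : ∀ j, w j < w a → x j ≤ Real.exp (w a)) {i : ι} (hi : w i = w a) :
    x i ≤ Real.exp (w a + if e (ρ a) then 2 * D.Δ e (ρ a) else D.B) := by
  have hk := h.1.2.1 a
  have hok := (h.1.2.2 a hk).2
  have hVa := h.1.2.2.mono D hk.le
  have h4 := D.four_le_Δ e (ρ a)
  have h4B := D.four_B_le_Δ e (ρ a)
  have hB := D.B_one
  have hpre : ∀ j, ρ j < ρ a → w a < w j := fun j hj =>
    lt_of_le_of_ne (h.1.anti D hj.le) fun hc => absurd (ha j hc.symm) (by omega)
  have hbig := D.big_up
  have hn : (0 : ℝ) ≤ D.n := Nat.cast_nonneg _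
  have htop := D.top_pos
  have hA : 0 ≤ (D.n : ℝ) * (D.n * D.top + 1) := by positivity
  have hxi := hx i
  have hτi := hτ i
  have hE := Real.exp_pos (w a)
  cases hek : e (ρ a) with
  | true =>
    simp only [if_true]
    have hp := hok.1 hek
    have hr := h.raise D hx ha (v := w a + D.Δ e (ρ a)) (c := false)
      ⟨by simp, fun _ p hp' => by
        rw [D.Δ_update e le_rfl]
        rcases D.Pt_sep h.1.1 hk hVa hp hp' with h' | h'
        · rw [← h', le_abs]; left; linarith
        · rw [le_abs] at h' ⊢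
          rcases h' with h' | h'
          · left; linarith
          · right; linarith⟩
      (fun j hj => by
        have := h.1.sep D (hpre j hj)
        rw [hek] at this
        simp only [if_true] at this
        linarith)
      (by linarith) (Real.exp_pos _).le (fun j _ => D.cost_le _ _ _) hlow hi
    have e1 : Real.exp (w a) ≤ Real.exp (w a + D.Δ e (ρ a)) := Real.exp_le_exp.2 (by linarith)
    have e2 : Real.exp (w a + 2 * D.Δ e (ρ a)) =
        Real.exp (D.Δ e (ρ a)) * Real.exp (w a + D.Δ e (ρ a)) := by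
      rw [← Real.exp_add]; congr 1; ring
    have e3 : Real.exp D.B ≤ Real.exp (D.Δ e (ρ a)) := Real.exp_le_exp.2 (by linarith)
    have e4 := Real.exp_pos (w a + D.Δ e (ρ a))
    rw [e2]
    have e5 : x i ≤ x i * (w a + D.Δ e (ρ a) - w a) - τ := by nlinarith
    have e6 : D.n * (D.n * D.top + 1) * Real.exp (w a) ≤
        D.n * (D.n * D.top + 1) * Real.exp (w a + D.Δ e (ρ a)) := by gcongr
    nlinarith
  | false =>
    simp only [Bool.false_eq_true, if_false]
    have hfar := hok.2 hek
    have e1 := exp_add_one_le (w a)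
    rw [Real.exp_add]
    by_cases hex : ∃ p ∈ D.Pt ρ w (ρ a), w a < p ∧ p < w a + 1 + D.Δ e (ρ a)
    · obtain ⟨p, hp, hp1, hp2⟩ := hex
      have hp3 : w a + D.Δ e (ρ a) ≤ p := by
        have := hfar p hp
        rw [abs_of_neg (by linarith)] at this; linarith
      have hr := h.raise D hx ha (v := p) (c := true) ⟨fun _ => hp, by simp⟩
        (fun j hj => by
          have := hpre j hj
          rcases D.Pt_sep h.1.1 hk hVa hp (D.mem_Pt w hk hj) with h' | h'
          · exact h'.le
          · rw [le_abs] at h'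
            rcases h' with h' | h' <;> linarith)
        hp1.le (Y := 6 * Real.exp (w a)) (by positivity) (fun j hj => by
          have hja := ha j hj
          have he' : Function.update e (ρ a) true (ρ j) = true := by
            rcases hja.eq_or_lt with h' | h'
            · rw [← h']; simp
            · rw [Function.update_of_ne (by omega)]; exact h.1.crit_of_tie D h' hj
          have hΔ : D.Δ e (ρ a) ≤ D.Δ (Function.update e (ρ a) true) (ρ j) := by
            rcases hja.eq_or_lt with h' | h'
            · rw [← h', D.Δ_update e le_rfl]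
            · have h1 := D.Δ_le_lo (e := Function.update e (ρ a) true) (j := ρ a) (by simp) h'
              rw [D.Δ_update e le_rfl] at h1
              have h2 := D.four_lo_le_Δ (Function.update e (ρ a) true) (ρ j)
              have h3 := D.lo_pos (Function.update e (ρ a) true) (ρ j)
              linarith
          unfold cost
          rw [if_pos he']
          have : Real.exp (p - D.Δ (Function.update e (ρ a) true) (ρ j)) ≤
              Real.exp (w a + 1) := Real.exp_le_exp.2 (by linarith)
          linarith) hlow hi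
      have e5 : x i ≤ x i * (p - w a) - τ := by nlinarith
      nlinarith
    · push Not at hex
      have hr := h.raise D hx ha (v := w a + 1) (c := false)
        ⟨by simp, fun _ p hp' => by
          rw [D.Δ_update e le_rfl]
          have h1 := hfar p hp'
          by_cases h2 : w a < p
          · have := hex p hp' h2
            rw [le_abs]; right; linarith
          · rw [abs_of_nonneg (by linarith)] at h1
            rw [le_abs]; left; linarith⟩
        (fun j hj => by
          have := hex _ (D.mem_Pt w hk hj) (hpre j hj)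
          linarith)
        (by linarith) (Y := 3 * Real.exp (w a)) (by positivity)
        (fun j _ => (D.cost_le _ _ _).trans e1) hlow hi
      nlinarith

/-- Lower levels are much smaller. -/
lemma Good.lower_small {x : ι → ℝ} (hx : ∀ i, 0 < x i) {τ : ℝ} (hτ : ∀ i, τ ≤ x i / 2)
    {ρ : ι → ℕ} {w : ι → ℝ} {e : ℕ → Bool} (h : D.Good x τ ρ w e) :
    ∀ m j, D.n ≤ ρ j + m → ∀ i, w j < w i → x j ≤ Real.exp (w i - 2 * D.lo e (ρ i + 1)) := by
  intro m
  induction m with
  | zero => intro j hj; have := h.1.2.1 j; omega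
  | succ m ih =>
    intro j hj i hji
    obtain ⟨a, haj, ha⟩ := exists_first ρ w j
    have hup := h.upper_step D hx hτ ha (fun j' hj' => by
      have h1 := h.1.lt_of_lt D (haj ▸ hj' : w j' < w j)
      have h2 := ih j' (by omega) a hj'
      refine h2.trans (Real.exp_le_exp.2 ?_)
      linarith [D.lo_pos e (ρ a + 1)]) haj.symm
    refine hup.trans (Real.exp_le_exp.2 ?_)
    have hai : w a < w i := haj ▸ hji
    have h1 := h.1.sep D hai
    have h2 := D.lo_mono e (show ρ i + 1 ≤ ρ a from h.1.lt_of_lt D hai)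
    have h3 := D.four_lo_le_Δ e (ρ a)
    have h4 := D.four_B_le_Δ e (ρ a)
    have h5 := D.B_one
    split_ifs at h1 ⊢ <;> linarith

lemma Good.upper {x : ι → ℝ} (hx : ∀ i, 0 < x i) {τ : ℝ} (hτ : ∀ i, τ ≤ x i / 2)
    {ρ : ι → ℕ} {w : ι → ℝ} {e : ℕ → Bool} (h : D.Good x τ ρ w e) (i : ι) :
    x i ≤ Real.exp (w i + 2 * D.lo e D.n) := by
  obtain ⟨a, hai, ha⟩ := exists_first ρ w i
  have hup := h.upper_step D hx hτ ha (fun j hj => by
    refine (h.lower_small D hx hτ D.n j (by omega) a hj).trans (Real.exp_le_exp.2 ?_)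
    linarith [D.lo_pos e (ρ a + 1)]) hai.symm
  refine hup.trans (Real.exp_le_exp.2 ?_)
  rw [hai]
  split_ifs with he
  · have := D.Δ_le_lo he (h.1.2.1 a); linarith
  · have := D.B_le_lo e D.n
    have := D.B_one
    linarith

lemma Good.lower_move {x : ι → ℝ} (hx : ∀ i, 0 < x i) {τ : ℝ} (hτ : ∀ i, τ ≤ x i / 2)
    {ρ : ι → ℕ} {w : ι → ℝ} {e : ℕ → Bool} (h : D.Good x τ ρ w e) {b : ι} (hb : Last ρ w b)
    {v : ℝ} {c : Bool} (hok : D.Ok ρ w (Function.update e (ρ b) c) (ρ b) v) (hv : v ≤ w b) :
    x b * (v - w b) - D.cost (Function.update e (ρ b) c) (ρ b) v + D.cost e (ρ b) (w b) ≤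
      τ + D.n * ((w b - v) + D.n * D.top + 1) * Real.exp (w b - 2 * D.lo e (ρ b + 1)) := by
  have hne : ∀ j, ρ j < ρ b → j ≠ b := fun j hj hc => by rw [hc] at hj; omega
  have hV : D.Val (ρ b + 1) ρ (Function.update w b v) (Function.update e (ρ b) c) := by
    have hV2 : D.Val (ρ b) ρ (Function.update w b v) (Function.update e (ρ b) c) :=
      D.Val_congr (h.1.2.2.mono D (h.1.2.1 b).le)
        (fun j hj => (Function.update_of_ne (hne j hj) _ _).symm)
        (fun s hs => (Function.update_of_ne (by omega) _ _).symm)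
    intro i hi
    by_cases hii : i = b
    · subst hii
      refine ⟨fun j hj => ?_, ?_⟩
      · rw [Function.update_self, Function.update_of_ne (hne j hj)]
        exact hv.trans (h.1.anti D hj.le)
      · rw [Function.update_self]
        exact D.Ok_congr (fun _ => Iff.rfl)
          (fun j hj => (Function.update_of_ne (hne j hj) _ _).symm) (fun _ _ => rfl) hok
    · have : ρ i ≠ ρ b := fun hc => hii (h.1.1 hc)
      exact hV2 i (by omega)
  have hlt : ∀ j, ρ b + 1 ≤ ρ j → w j < w b := fun j hj =>
    lt_of_le_of_ne (h.1.anti D (by omega)) fun hc => by have := hb j hc; omega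
  have hc := h.cmp D hx (h.1.2.1 b) hV (κ := w b - v) (by linarith) (fun i j hi hj => by
      have h1 := hlt i hi
      by_cases hjb : j = b
      · subst hjb; rw [Function.update_self]; linarith
      · rw [Function.update_of_ne hjb]
        have := h.1.anti D (show ρ j ≤ ρ b by omega)
        linarith) (Real.exp_pos (w b - 2 * D.lo e (ρ b + 1))).le
    (fun j hj => ⟨h.lower_small D hx hτ D.n j (by omega) b (hlt j hj), Real.exp_le_exp.2 (by
      have h1 := h.1.sep D (hlt j hj)
      have h2 := D.lo_mono e hj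
      have h3 := D.four_lo_le_Δ e (ρ j)
      have h4 := D.lo_pos e (ρ j)
      split_ifs at h1 <;> linarith)⟩)
  rw [sum_eq_single b] at hc
  · simpa using hc
  · intro j _ hjb
    split_ifs with hj
    · have : ρ j ≠ ρ b := fun hc => hjb (h.1.1 hc)
      rw [Function.update_of_ne hjb, D.cost_congr (e := Function.update e (ρ b) c) (e' := e)
        (fun t ht => Function.update_of_ne (by omega) _ _)]
      ring
    · rfl
  · simp

lemma Good.lower_last {x : ι → ℝ} (hx : ∀ i, 0 < x i) {τ : ℝ} (hτ : ∀ i, τ ≤ x i / 2)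
    {ρ : ι → ℕ} {w : ι → ℝ} {e : ℕ → Bool} (h : D.Good x τ ρ w e) {b : ι} (hb : Last ρ w b) :
    Real.exp (w b - 2 * D.lo e D.n) ≤ x b := by
  have hk := h.1.2.1 b
  have hok := (h.1.2.2 b hk).2
  have hVb := h.1.2.2.mono D hk.le
  have h4 := D.four_le_Δ e (ρ b)
  have h4B := D.four_B_le_Δ e (ρ b)
  have hB := D.B_one
  have hbig := D.big_low
  have hn : (0 : ℝ) ≤ D.n := Nat.cast_nonneg _
  have htop := D.top_pos
  have hΔ := D.Δ_le_top e hk
  have hxb := hx b
  have hτb := hτ b
  by_contra hcon
  push Not at hcon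
  cases hek : e (ρ b) with
  | true =>
    have hp := hok.1 hek
    have hr := h.lower_move D hx hτ hb (v := w b - D.Δ e (ρ b)) (c := false)
      ⟨by simp, fun _ p hp' => by
        rw [D.Δ_update e le_rfl]
        rcases D.Pt_sep h.1.1 hk hVb hp hp' with h' | h'
        · rw [← h', le_abs]; right; linarith
        · rw [le_abs] at h' ⊢
          rcases h' with h' | h'
          · left; linarith
          · right; linarith⟩ (by linarith)
    rw [lo_succ, if_pos hek] at hr
    simp only [cost, Function.update_self, hek, if_true, Bool.false_eq_true, if_false] at hr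
    set X := Real.exp (w b - 2 * D.Δ e (ρ b)) with hX
    have hX0 : 0 < X := Real.exp_pos _
    have e0 : x b < X := hcon.trans_le (Real.exp_le_exp.2 (by
      have := D.Δ_le_lo hek hk; linarith))
    have e1 : Real.exp (w b - D.Δ e (ρ b)) = Real.exp (D.Δ e (ρ b)) * X := by
      rw [hX, ← Real.exp_add]; congr 1; ring
    have e3 : Real.exp D.B ≤ Real.exp (D.Δ e (ρ b)) := Real.exp_le_exp.2 (by linarith)
    rw [e1] at hr
    have e4 : x b * D.Δ e (ρ b) ≤ X * D.top := mul_le_mul e0.le hΔ (by linarith) hX0.le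
    have e5 : D.n * ((w b - (w b - D.Δ e (ρ b))) + D.n * D.top + 1) * X ≤
        D.n * (D.top + 1 + D.n * D.top + 1) * X := by
      gcongr; linarith
    have e6 : 0 ≤ D.n * (D.top + 1 + D.n * D.top + 1) * X := by positivity
    nlinarith
  | false =>
    have hfar := hok.2 hek
    set X := Real.exp (w b - D.B) with hX
    have hX0 : 0 < X := Real.exp_pos _
    have e0 : x b < X := hcon.trans_le (Real.exp_le_exp.2 (by
      have := D.B_le_lo e D.n; linarith))
    have e1 : Real.exp (w b) = Real.exp D.B * X := by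
      rw [hX, ← Real.exp_add]; congr 1; ring
    have e2 : Real.exp (w b - 2 * D.lo e (ρ b + 1)) ≤ X := Real.exp_le_exp.2 (by
      have := D.B_le_lo e (ρ b + 1); linarith)
    have fin : ∀ v c, D.Ok ρ w (Function.update e (ρ b) c) (ρ b) v → v ≤ w b →
        w b - v ≤ D.top + 1 →
        D.cost (Function.update e (ρ b) c) (ρ b) v ≤ Real.exp (w b) / 2 → False := by
      intro v c h1 h2 h3 h5
      have hr := h.lower_move D hx hτ hb h1 h2
      have hc : D.cost e (ρ b) (w b) = Real.exp (w b) := by simp [cost, hek]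
      rw [hc] at hr
      have e4 : x b * (w b - v) ≤ X * (D.top + 1) := mul_le_mul e0.le h3 (by linarith) hX0.le
      have e5 : D.n * ((w b - v) + D.n * D.top + 1) * Real.exp (w b - 2 * D.lo e (ρ b + 1)) ≤
          D.n * (D.top + 1 + D.n * D.top + 1) * X := by
        have : 0 ≤ w b - v := by linarith
        gcongr
      rw [e1] at hr h5
      nlinarith
    by_cases hex : ∃ p ∈ D.Pt ρ w (ρ b), p < w b ∧ w b - 1 - D.Δ e (ρ b) < p
    · obtain ⟨p, hp, hp1, hp2⟩ := hex
      have hp3 : p ≤ w b - D.Δ e (ρ b) := by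
        have := hfar p hp
        rw [abs_of_pos (by linarith)] at this; linarith
      refine fin p true ⟨fun _ => hp, by simp⟩ hp1.le (by linarith) ?_
      simp only [cost, Function.update_self, if_true]
      rw [D.Δ_update e le_rfl]
      have a1 : Real.exp (p - D.Δ e (ρ b)) ≤ Real.exp (w b - 8) := Real.exp_le_exp.2 (by linarith)
      have a2 : Real.exp (w b) = Real.exp 8 * Real.exp (w b - 8) := by
        rw [← Real.exp_add]; congr 1; ring
      have a3 : (8 : ℝ) + 1 ≤ Real.exp 8 := Real.add_one_le_exp _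
      have a4 := Real.exp_pos (w b - 8)
      nlinarith
    · push Not at hex
      refine fin (w b - 1) false ⟨by simp, fun _ p hp' => ?_⟩ (by linarith) (by linarith) ?_
      · rw [D.Δ_update e le_rfl]
        have h1 := hfar p hp'
        by_cases h2 : p < w b
        · have := hex p hp' h2
          rw [le_abs]; left; linarith
        · rw [abs_of_nonpos (by linarith)] at h1
          rw [le_abs]; right; linarith
      · simp only [cost, Function.update_self, Bool.false_eq_true, if_false]
        have a2 : Real.exp (w b) = Real.exp 1 * Real.exp (w b - 1) := by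
          rw [← Real.exp_add]; congr 1; ring
        have a3 : (1 : ℝ) + 1 ≤ Real.exp 1 := Real.add_one_le_exp _
        have a4 := Real.exp_pos (w b - 1)
        nlinarith

lemma Good.lower {x : ι → ℝ} (hx : ∀ i, 0 < x i) {τ : ℝ} (hτ : ∀ i, τ ≤ x i / 2)
    {ρ : ι → ℕ} {w : ι → ℝ} {e : ℕ → Bool} (h : D.Good x τ ρ w e) (i : ι) :
    Real.exp (w i - 2 * D.lo e D.n) ≤ x i := by
  obtain ⟨b, hbi, hb⟩ := exists_last ρ w i
  have hs := h.swap D (hb i hbi.symm) hbi.symm
  refine hs.lower_last D hx hτ fun j hj => ?_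
  simp only [Function.comp, Equiv.swap_apply_left]
  refine hb _ ?_
  rcases eq_or_ne j i with rfl | hji
  · simp
  · rcases eq_or_ne j b with rfl | hjb
    · simp [hbi]
    · rw [Equiv.swap_apply_of_ne_of_ne hji hjb, hj, hbi]

lemma Good.close {x : ι → ℝ} (hx : ∀ i, 0 < x i) {τ : ℝ} (hτ : ∀ i, τ ≤ x i / 2)
    {ρ : ι → ℕ} {w : ι → ℝ} {e : ℕ → Bool} (h : D.Good x τ ρ w e) (i : ι) :
    |Real.log (x i) - w i| ≤ 2 * D.lo e D.n := by
  have h1 := h.upper D hx hτ i
  have h2 := h.lower D hx hτ i
  rw [← Real.log_le_iff_le_exp (hx i)] at h1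
  rw [← Real.le_log_iff_exp_le (hx i)] at h2
  rw [abs_le]; constructor <;> linarith

end Data

end Vale.Agent.P072
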