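import Mathlib

/-! Definitions for the permanence conjecture. -/

namespace Vale.Agent.P072

open MeasureTheory

/-- A finite reaction network on `d` species. -/
structure Network (d : ℕ) where
  /-- the complexes -/
  C : Finset (Fin d → ℕ)
  /-- the reactions `y → y'`, as pairs `(y, y')` -/
  R : Finset ((Fin d → ℕ) × (Fin d → ℕ))
  mem : ∀ r ∈ R, r.1 ∈ C ∧ r.2 ∈ C
  ne : ∀ r ∈ R, r.1 ≠ r.2

variable {d : ℕ}

/-- Every reaction `y → y'` has a directed path back from `y'` to `y`. -/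
def Network.WeaklyReversible (N : Network d) : Prop :=
  ∀ r ∈ N.R, Relation.TransGen (fun a b => (a, b) ∈ N.R) r.2 r.1

/-- The reaction vector `y' - y`. -/
def reactionVector (r : (Fin d → ℕ) × (Fin d → ℕ)) : Fin d → ℝ :=
  fun i => (r.2 i : ℝ) - (r.1 i : ℝ)

/-- The mass-action vector field with rates `k`. -/
def Network.field (N : Network d) (k : (Fin d → ℕ) × (Fin d → ℕ) → ℝ) (x : Fin d → ℝ) :
    Fin d → ℝ :=
  ∑ r ∈ N.R, (k r * ∏ i, x i ^ r.1 i) • reactionVector r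

/-- The stoichiometric subspace. -/
def Network.stoich (N : Network d) : Submodule ℝ (Fin d → ℝ) :=
  Submodule.span ℝ (reactionVector '' (N.R : Set ((Fin d → ℕ) × (Fin d → ℕ))))

/-- The positive stoichiometric class of `c`. -/
def Network.posClass (N : Network d) (c : Fin d → ℝ) : Set (Fin d → ℝ) :=
  {x | x - c ∈ N.stoich ∧ ∀ i, 0 < x i}

/-- Permanence of the autonomous system `x' = f x` on `P` (classical solutions): there is a compact
`K ⊆ P` such that from every `x₀ ∈ P` starts a global positive solution which is eventually in `K`,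
and every solution on any `[0, T]` starting at `x₀` coincides with it. -/
def PermanentOn (f : (Fin d → ℝ) → (Fin d → ℝ)) (P : Set (Fin d → ℝ)) : Prop :=
  ∃ K : Set (Fin d → ℝ), IsCompact K ∧ K ⊆ P ∧ ∀ x₀ ∈ P, ∃ x : ℝ → Fin d → ℝ,
    x 0 = x₀ ∧ (∀ t, 0 ≤ t → HasDerivWithinAt x (f (x t)) (Set.Ici 0) t) ∧
    (∀ t, 0 ≤ t → ∀ i, 0 < x t i) ∧ (∃ t₀, ∀ t, t₀ ≤ t → x t ∈ K) ∧
    ∀ (T : ℝ) (y : ℝ → Fin d → ℝ), y 0 = x₀ →
      (∀ t ∈ Set.Icc 0 T, HasDerivWithinAt y (f (y t)) (Set.Icc 0 T) t) →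
      ∀ t ∈ Set.Icc 0 T, y t = x t

/-- `x` solves `x' = f t x`, `x 0 = x₀` on `[0, T]` in the Caratheodory (integral) sense. -/
def IsIntegralSolution (f : ℝ → (Fin d → ℝ) → (Fin d → ℝ)) (x₀ : Fin d → ℝ)
    (x : ℝ → Fin d → ℝ) (T : ℝ) : Prop :=
  ContinuousOn x (Set.Icc 0 T) ∧ IntegrableOn (fun s => f s (x s)) (Set.Icc 0 T) ∧
    ∀ t ∈ Set.Icc 0 T, x t = x₀ + ∫ s in (0 : ℝ)..t, f s (x s)

/-- Permanence on `P`, with one compact set `K`, for all measurable time-dependent rates with values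
in `[ε, ε⁻¹]`. -/
def Network.UniformlyPermanentOn (N : Network d) (ε : ℝ) (P : Set (Fin d → ℝ)) : Prop :=
  ∃ K : Set (Fin d → ℝ), IsCompact K ∧ K ⊆ P ∧
    ∀ k : ℝ → (Fin d → ℕ) × (Fin d → ℕ) → ℝ, (∀ r ∈ N.R, Measurable fun t => k t r) →
      (∀ r ∈ N.R, ∀ t, 0 ≤ t → ε ≤ k t r ∧ k t r ≤ ε⁻¹) →
      ∀ x₀ ∈ P, ∃ x : ℝ → Fin d → ℝ,
        (∀ T, 0 ≤ T → IsIntegralSolution (fun t => N.field (k t)) x₀ x T) ∧
        (∀ t, 0 ≤ t → ∀ i, 0 < x t i) ∧ (∃ t₀, ∀ t, t₀ ≤ t → x t ∈ K) ∧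
        ∀ (T : ℝ) (y : ℝ → Fin d → ℝ), IsIntegralSolution (fun t => N.field (k t)) x₀ y T →
          ∀ t ∈ Set.Icc 0 T, y t = x t

end Vale.Agent.P072
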