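import Vale.Agent.P072.Field

/-! Dynamics: monotonicity, persistence and absorption. -/

namespace Vale.Agent.P072

open Finset MeasureTheory

variable {d : ℕ}

/-- `x` is a primitive of `F` on `[0, ∞)`. -/
structure Prim (x F : ℝ → Fin d → ℝ) : Prop where
  cont : Continuous x
  int : ∀ a b, IntervalIntegrable F volume a b
  eq : ∀ s t, 0 ≤ s → 0 ≤ t → x t - x s = ∫ u in s..t, F u

/-- At time `t` the state is positive and the velocity is a mass-action velocity. -/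
def Adm (N : Network d) (ε : ℝ) (x F : ℝ → Fin d → ℝ) (t : ℝ) : Prop :=
  (∀ i, 0 < x t i) ∧ ∃ k : (Fin d → ℕ) × (Fin d → ℕ) → ℝ, (∀ r ∈ N.R, ε ≤ k r ∧ k r ≤ ε⁻¹) ∧
    F t = N.field k (x t)

/-- The conclusion of `lyapZ`. -/
def IsLyap (N : Network d) (ε : ℝ) (Z : Finset (Fin d)) (Λ : ℝ) (V : (Fin d → ℝ) → ℝ) (C : ℝ) :
    Prop :=
  ∀ x : Fin d → ℝ, (∀ i, 0 < x i) →
      V x ≤ ∑ i ∈ Z, x i * (Real.log (x i) + C) ∧
      (∀ s, (∑ i ∈ Z, x i) * (s - C) - C * Real.exp s ≤ V x) ∧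
      ∀ τ > 0, ∃ w : Fin d → ℝ,
        (∀ x' : Fin d → ℝ, (∀ i, 0 < x' i) → V x - τ + ∑ i, w i * (x' i - x i) ≤ V x') ∧
        (∀ i ∈ Z, |Real.log (x i) - w i| ≤ C) ∧
        ∀ x' : Fin d → ℝ, (∀ i, 0 < x' i) → (∀ i ∈ Z, |Real.log (x' i) - Real.log (x i)| ≤ 1) →
          (∀ i, i ∉ Z → |Real.log (x' i)| ≤ Λ) →
          ∀ k : (Fin d → ℕ) × (Fin d → ℕ) → ℝ, (∀ r ∈ N.R, ε ≤ k r ∧ k r ≤ ε⁻¹) →
            ∑ i, w i * N.field k x' i ≤ 0 ∧
            ((∃ r ∈ N.R, ∑ i, w i * reactionVector r i ≠ 0) →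
              ∃ r ∈ N.R, ∑ i, w i * N.field k x' i ≤ -(ε / 2) * ∏ i, x' i ^ r.1 i)

lemma Prim.dot_le {x F : ℝ → Fin d → ℝ} (h : Prim x F) (w : Fin d → ℝ) {s t c : ℝ} (hs : 0 ≤ s)
    (hst : s ≤ t) (hc : ∀ u ∈ Set.Ioo s t, ∑ i, w i * F u i ≤ c) :
    ∑ i, w i * (x t i - x s i) ≤ c * (t - s) := by
  let l : (Fin d → ℝ) →L[ℝ] ℝ := ∑ i, w i • ContinuousLinearMap.proj i
  have hl : ∀ v, l v = ∑ i, w i * v i := fun v => by simp [l]
  have h1 := l.intervalIntegral_comp_comm (h.int s t)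
  rw [← h.eq s t hs (hs.trans hst), hl] at h1
  have h2 : IntervalIntegrable (fun u => l (F u)) volume s t :=
    ⟨l.integrable_comp (h.int s t).1, l.integrable_comp (h.int s t).2⟩
  have h3 := intervalIntegral.integral_mono_on_of_le_Ioo hst h2
    (intervalIntegrable_const (c := c)) (fun u hu => by rw [hl]; exact hc u hu)
  rw [h1, intervalIntegral.integral_const, smul_eq_mul, mul_comm] at h3
  exact h3

lemma Prim.mono {N : Network d} {ε Λ C : ℝ} {Z : Finset (Fin d)} {V : (Fin d → ℝ) → ℝ}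
    (hV : IsLyap N ε Z Λ V C) {x F : ℝ → Fin d → ℝ} (h : Prim x F) {a b : ℝ} (ha : 0 ≤ a)
    (hab : a ≤ b) (hadm : ∀ t ∈ Set.Icc a b, Adm N ε x F t)
    (hΛ : ∀ t ∈ Set.Icc a b, ∀ i, i ∉ Z → |Real.log (x t i)| ≤ Λ) : V (x b) ≤ V (x a) := by
  have hc : ContinuousOn (fun t i => Real.log (x t i)) (Set.Icc a b) :=
    continuousOn_pi.2 fun i => ContinuousOn.log
      ((continuous_apply i).comp h.cont).continuousOn fun t ht => ((hadm t ht).1 i).ne'
  obtain ⟨h0, hh0, huc⟩ := Metric.uniformContinuousOn_iff_le.1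
    (isCompact_Icc.uniformContinuousOn_of_continuous hc) 1 one_pos
  refine chain_le (φ := fun t => V (x t)) hh0 hab fun s t has hst htb hts => ?_
  refine le_of_forall_pos_le_add fun τ hτ => ?_
  have ht : t ∈ Set.Icc a b := ⟨has.trans hst, htb⟩
  have hs : s ∈ Set.Icc a b := ⟨has, hst.trans htb⟩
  obtain ⟨w, hw1, -, hw3⟩ := (hV (x t) (hadm t ht).1).2.2 τ hτ
  have h1 := hw1 (x s) (hadm s hs).1
  have h2 := h.dot_le w (ha.trans has) hst (c := 0) fun u hu => by
    have hu' : u ∈ Set.Icc a b := ⟨has.trans hu.1.le, hu.2.le.trans htb⟩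
    obtain ⟨hp, k, hk, hF⟩ := hadm u hu'
    rw [hF]
    refine (hw3 (x u) hp (fun i _ => ?_) (hΛ u hu') k hk).1
    have := huc u hu' t ht (by
      rw [Real.dist_eq, abs_le]; constructor <;> linarith [hu.1, hu.2])
    exact (dist_le_pi_dist (fun i => Real.log (x u i)) (fun i => Real.log (x t i)) i).trans this
  have h3 : ∑ i, w i * (x s i - x t i) = -∑ i, w i * (x t i - x s i) := by
    rw [← sum_neg_distrib]; exact sum_congr rfl fun i _ => by ring
  linarith

/-- Persistence of bounded trajectories. -/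
lemma Prim.persist {N : Network d} (hN : N.WeaklyReversible) {ε : ℝ} (hε : 0 < ε)
    {x F : ℝ → Fin d → ℝ} (h : Prim x F) (hadm : ∀ t, 0 ≤ t → Adm N ε x F t) {β : ℝ}
    (hβ : ∀ t, 0 ≤ t → ∀ i, x t i ≤ β) :
    ∃ η T : ℝ, 0 < η ∧ 0 ≤ T ∧ ∀ t, T ≤ t → ∀ i, η ≤ x t i := by
  classical
  let Van : Finset (Fin d) → Prop := fun Z => ∀ η > 0, ∀ T, ∃ t, T ≤ t ∧ ∑ i ∈ Z, x t i < η
  obtain ⟨Z, hZ, hmax⟩ := exists_max_image (univ.filter Van) card
    ⟨∅, by simp only [mem_filter, mem_univ, true_and]; exact fun η hη T => ⟨T, le_rfl, by simpa⟩⟩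
  have hZ' : Van Z := (mem_filter.1 hZ).2
  have h1 : ∀ j, ∃ η T : ℝ, 0 < η ∧ (j ∉ Z → ∀ t, T ≤ t → η ≤ x t j + ∑ i ∈ Z, x t i) := by
    intro j
    by_cases hj : j ∈ Z
    · exact ⟨1, 0, one_pos, fun h => absurd hj h⟩
    · have : ¬ Van (insert j Z) := fun hv => by
        have := hmax _ (mem_filter.2 ⟨mem_univ _, hv⟩)
        rw [card_insert_of_notMem hj] at this
        omega
      simp only [Van] at this
      push Not at this
      obtain ⟨η, hη, T, hT⟩ := this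
      exact ⟨η, T, hη, fun _ t ht => by simpa [sum_insert hj] using hT t ht⟩
  choose η T hη hT using h1
  obtain ⟨η0, hη0, -, hη1⟩ := exists_mu (Set.finite_range η)
  obtain ⟨T1, hT1⟩ := (Set.finite_range T).bddAbove
  set T0 := max T1 0 with hT0
  have h2 : ∀ t, T0 ≤ t → ∑ i ∈ Z, x t i ≤ η0 / 2 → ∀ j, j ∉ Z → η0 / 2 ≤ x t j := by
    intro t ht hs j hj
    have a1 := hη1 _ ⟨j, rfl⟩ (hη j).ne'
    rw [abs_of_pos (hη j)] at a1
    have a2 := hT j hj t ((hT1 ⟨j, rfl⟩).trans ((le_max_left _ _).trans ht))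
    linarith
  have hT00 : 0 ≤ T0 := le_max_right _ _
  rcases Z.eq_empty_or_nonempty with rfl | hne
  · exact ⟨η0 / 2, T0, by linarith, hT00, fun t ht i => h2 t ht (by simp; linarith) i (by simp)⟩
  exfalso
  obtain ⟨V, C, hC, hV⟩ := lyapZ N hN hε Z (|Real.log (η0 / 2)| + |Real.log β|) (by positivity)
  set g : ℝ → ℝ := fun t => ∑ i ∈ Z, x t i with hg
  have hgc : Continuous g := continuous_finsetSum _ fun i _ => (continuous_apply i).comp h.cont
  have hgpos : ∀ t, 0 ≤ t → 0 < g t := fun t ht => sum_pos (fun i _ => (hadm t ht).1 i) hne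
  set η' := min (η0 / 2) (Real.exp (-C - 1)) with hη'
  have hη'0 : 0 < η' := lt_min (by linarith) (Real.exp_pos _)
  set c0 := min η' (g T0) with hc0
  have hc00 : 0 < c0 := lt_min hη'0 (hgpos _ hT00)
  set s := Real.log (c0 / (4 * (C + 1))) with hs
  have hs1 : C * Real.exp s ≤ c0 / 4 := by
    rw [hs, Real.exp_log (by positivity), mul_div_assoc', div_le_div_iff₀ (by positivity)
      (by positivity)]
    nlinarith
  obtain ⟨t1, ht1, hlt⟩ := hZ' (min η' (c0 / (4 * (|s - C| + 1)))) (lt_min hη'0 (by positivity)) T0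
  obtain ⟨t0, ht0, hle, hcase⟩ := last_exit hgc ht1 (hlt.trans_le (min_le_left _ _))
  have ht00 : 0 ≤ t0 := hT00.trans ht0.1
  have hmono := h.mono hV ht00 ht0.2 (fun t ht => hadm t (ht00.trans ht.1)) (fun t ht i hi => by
    have a1 := h2 t (ht0.1.trans ht.1) ((hle t ht).trans (min_le_left _ _)) i hi
    have a2 := hβ t (ht00.trans ht.1) i
    have a3 := Real.log_le_log (by linarith) a1
    have a4 := Real.log_le_log ((hadm t (ht00.trans ht.1)).1 i) a2
    rw [abs_le]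
    constructor
    · linarith [neg_abs_le (Real.log (η0 / 2)), abs_nonneg (Real.log β)]
    · linarith [le_abs_self (Real.log β), abs_nonneg (Real.log (η0 / 2))])
  have b1 : V (x t0) ≤ -c0 := by
    have hp := (hadm t0 ht00).1
    refine (hV (x t0) hp).1.trans ?_
    have : ∑ i ∈ Z, x t0 i * (Real.log (x t0 i) + C) ≤ ∑ i ∈ Z, -x t0 i := by
      refine sum_le_sum fun i hi => ?_
      have a1 : x t0 i ≤ g t0 := single_le_sum (f := fun i => x t0 i) (fun i _ => (hp i).le) hi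
      have a2 : x t0 i ≤ Real.exp (-C - 1) :=
        a1.trans ((hle t0 ⟨le_rfl, ht0.2⟩).trans (min_le_right _ _))
      rw [← Real.log_le_iff_le_exp (hp i)] at a2
      have := hp i
      nlinarith
    rw [sum_neg_distrib] at this
    refine this.trans (neg_le_neg ?_)
    rcases hcase with rfl | hc
    · exact min_le_right _ _
    · exact (min_le_left _ _).trans hc.ge
  have b2 := (hV (x t1) (hadm t1 (hT00.trans ht1)).1).2.1 s
  have b3 : g t1 * (|s - C| + 1) ≤ c0 / 4 := by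
    have := hlt.le.trans (min_le_right _ _)
    rw [le_div_iff₀ (by positivity)] at this
    change g t1 * _ ≤ _ at this
    linarith
  have b4 := hgpos t1 (hT00.trans ht1)
  have b5 := neg_abs_le (s - C)
  change g t1 * _ - _ ≤ _ at b2
  nlinarith

lemma Prim.sub_mem {N : Network d} {ε : ℝ} {x F : ℝ → Fin d → ℝ} (h : Prim x F)
    (hadm : ∀ t, 0 ≤ t → Adm N ε x F t) {t : ℝ} (ht : 0 ≤ t) : x t - x 0 ∈ N.stoich := by
  by_contra hc
  obtain ⟨f, hf, hk⟩ := Submodule.exists_le_ker_of_notMem hc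
  let l : (Fin d → ℝ) →L[ℝ] ℝ := LinearMap.toContinuousLinearMap f
  have h1 := l.intervalIntegral_comp_comm (h.int 0 t)
  rw [← h.eq 0 t le_rfl ht] at h1
  refine hf (h1.symm.trans ?_)
  refine (intervalIntegral.integral_congr (g := fun _ => (0 : ℝ)) fun u hu => ?_).trans (by simp)
  rw [Set.uIcc_of_le ht] at hu
  obtain ⟨-, k, -, hF⟩ := hadm u hu.1
  simp only [hF]
  exact hk (field_mem N k _)

/-- Absorption into the box. -/
lemma Prim.absorb {N : Network d} (hN : N.WeaklyReversible) {ε : ℝ} (hε : 0 < ε)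
    {V : (Fin d → ℝ) → ℝ} {C : ℝ} (hV : IsLyap N ε univ 0 V C) {c : Fin d → ℝ}
    {K : Set (Fin d → ℝ)}
    (hK : ∀ x w : Fin d → ℝ, (∀ i, 0 < x i) →
      ∑ i, w i * (x i - c i) = 0 → (∀ i, |Real.log (x i) - w i| ≤ C) → x ∈ K)
    {x F : ℝ → Fin d → ℝ} (h : Prim x F) (hadm : ∀ t, 0 ≤ t → Adm N ε x F t) {β Φ : ℝ}
    (hβ : ∀ t, 0 ≤ t → ∀ i, x t i ≤ β) (hΦ : ∀ t, ‖F t‖ ≤ Φ) (hc : x 0 - c ∈ N.stoich) :
    ∃ T, ∀ t, T ≤ t → x t ∈ K := by
  obtain ⟨η, T0, hη, hT0, hlow⟩ := h.persist hN hε hadm hβ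
  have hΦ0 : 0 ≤ Φ := (norm_nonneg _).trans (hΦ 0)
  obtain ⟨μ, hμ, -, hμ1⟩ := exists_mu (N.R.finite_toSet.image fun r => ∏ i, η ^ r.1 i)
  set h0 := η / (Φ + 1) with hh0
  have hh : 0 < h0 := by positivity
  set γ := ε / 2 * μ * h0 with hγ
  have hγ0 : 0 < γ := by positivity
  have hbd : BddBelow ((fun t => V (x t)) '' Set.Ici T0) := by
    refine ⟨-(C * Real.exp C), ?_⟩
    rintro _ ⟨t, ht, rfl⟩
    simpa using (hV (x t) (hadm t (hT0.trans ht)).1).2.1 C
  obtain ⟨_, ⟨T1, hT1, rfl⟩, hlt⟩ := exists_lt_of_csInf_lt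
    (show ((fun t => V (x t)) '' Set.Ici T0).Nonempty from ⟨_, T0, Set.self_mem_Ici, rfl⟩)
    (show sInf ((fun t => V (x t)) '' Set.Ici T0) <
      sInf ((fun t => V (x t)) '' Set.Ici T0) + γ / 2 by linarith)
  have hT1' : T0 ≤ T1 := hT1
  refine ⟨T1 + h0, fun t ht => ?_⟩
  by_contra hcon
  have ht0 : 0 ≤ t := by linarith
  obtain ⟨w, hw1, hw2, hw3⟩ := (hV (x t) (hadm t ht0).1).2.2 (γ / 2) (by positivity)
  have hne : ∃ r ∈ N.R, ∑ i, w i * reactionVector r i ≠ 0 := by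
    by_contra hall
    push Not at hall
    refine hcon (hK _ w (hadm t ht0).1 ?_ fun i => hw2 i (mem_univ i))
    have := N.stoich.add_mem (h.sub_mem hadm ht0) hc
    rw [sub_add_sub_cancel] at this
    exact dot_stoich N hall this
  have h1 := hw1 (x (t - h0)) (hadm _ (by linarith)).1
  have h2 := h.dot_le w (s := t - h0) (t := t) (by linarith) (by linarith) (c := -(ε / 2) * μ)
    fun u hu => by
    have hu0 : T0 ≤ u := by linarith [hu.1]
    obtain ⟨hp, k, hk, hF⟩ := hadm u (by linarith)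
    rw [hF]
    suffices hcl : ∀ i ∈ (univ : Finset (Fin d)), |Real.log (x u i) - Real.log (x t i)| ≤ 1 by
      obtain ⟨r, hr, hle⟩ := (hw3 (x u) hp hcl (by simp) k hk).2 hne
      refine hle.trans ?_
      have a1 := hμ1 _ ⟨r, hr, rfl⟩ (by positivity)
      rw [abs_of_pos (by positivity)] at a1
      have a2 : ∏ i, η ^ r.1 i ≤ ∏ i, x u i ^ r.1 i :=
        prod_le_prod (fun i _ => by positivity) fun i _ => pow_le_pow_left₀ hη.le (hlow u hu0 i) _
      nlinarith
    · intro i _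
      have a1 : ‖x t - x u‖ ≤ Φ * |t - u| := by
        rw [h.eq u t (by linarith) ht0]
        exact intervalIntegral.norm_integral_le_of_norm_le_const fun v _ => hΦ v
      have a2 : |x t i - x u i| ≤ η := by
        refine ((norm_le_pi_norm (x t - x u) i).trans a1).trans ?_
        rw [abs_of_pos (by linarith [hu.2])]
        have : Φ * (t - u) ≤ (Φ + 1) * h0 :=
          mul_le_mul (by linarith) (by linarith [hu.1]) (by linarith [hu.2]) (by linarith)
        rwa [hh0, mul_div_cancel₀ _ (by positivity)] at this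
      have a3 := hlow u hu0 i
      have a4 := hlow t (by linarith) i
      rw [abs_le] at a2 ⊢
      have key : ∀ p q : ℝ, η ≤ p → η ≤ q → p - q ≤ η → Real.log p - Real.log q ≤ 1 := by
        intro p q hp hq hpq
        have hq0 : 0 < q := by linarith
        rw [← Real.log_div (by linarith) hq0.ne']
        have b1 := Real.log_le_sub_one_of_pos (div_pos (by linarith : 0 < p) hq0)
        have b2 : p / q ≤ 2 := by rw [div_le_iff₀ hq0]; linarith
        linarith
      constructor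
      · linarith [key _ _ a4 a3 a2.2]
      · exact key _ _ a3 a4 (by linarith [a2.1])
  have h3 : ∑ i, w i * (x (t - h0) i - x t i) = -∑ i, w i * (x t i - x (t - h0) i) := by
    rw [← sum_neg_distrib]; exact sum_congr rfl fun i _ => by ring
  have h4 := h.mono hV (a := T1) (b := t - h0) (by linarith) (by linarith)
    (fun u hu => hadm u (by linarith [hu.1])) (by simp)
  have h5 := csInf_le hbd ⟨t, show T0 ≤ t by linarith, rfl⟩
  simp only at hlt h5
  have h6 : -(ε / 2) * μ * (t - (t - h0)) = -γ := by rw [hγ]; ring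
  linarith

end Vale.Agent.P072
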