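import Mathlib

/-! Existence and uniqueness for integral equations, and real induction lemmas. -/

namespace Vale.Agent.P072

open MeasureTheory Set

variable {E : Type} [NormedAddCommGroup E] [NormedSpace ℝ E]

lemma weight_est {g : ℝ → E} {L m t : ℝ} (ht : 0 ≤ t) (hm : 0 ≤ m)
    (h : ∀ s ∈ Icc 0 t, ‖g s‖ ≤ L * (Real.exp (2 * L * s) * m)) :
    ‖∫ s in (0 : ℝ)..t, g s‖ ≤ Real.exp (2 * L * t) * m / 2 := by
  have hc : Continuous fun s => L * (Real.exp (2 * L * s) * m) := by fun_prop
  refine (intervalIntegral.norm_integral_le_of_norm_le ht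
    (Filter.Eventually.of_forall fun s hs => h s (Ioc_subset_Icc_self hs))
    (hc.intervalIntegrable _ _)).trans ?_
  have hd : ∀ s ∈ uIcc 0 t, HasDerivAt (fun s => Real.exp (2 * L * s) * m / 2)
      (L * (Real.exp (2 * L * s) * m)) s := by
    intro s _
    have h1 : HasDerivAt (fun s => 2 * L * s) (2 * L) s := by
      simpa using (hasDerivAt_id s).const_mul (2 * L)
    exact ((h1.exp.mul_const m).div_const 2).congr_deriv (by ring)
  rw [intervalIntegral.integral_eq_sub_of_hasDerivAt hd (hc.intervalIntegrable _ _)]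
  simp only [mul_zero, Real.exp_zero]
  linarith

omit [NormedSpace ℝ E] in
lemma intInt_of_bdd {g : ℝ → E} (hg : AEStronglyMeasurable g volume) {Φ : ℝ}
    (hb : ∀ s, ‖g s‖ ≤ Φ) (a b : ℝ) : IntervalIntegrable g volume a b :=
  (intervalIntegrable_const (c := Φ)).mono_fun' hg.restrict (Filter.Eventually.of_forall hb)

theorem exists_sol [CompleteSpace E] (f : ℝ → E → E)
    (hmeas : ∀ u : ℝ → E, Continuous u → AEStronglyMeasurable (fun s => f s (u s)) volume)
    {Φ L : ℝ} (hL : 0 < L) (hΦ : ∀ s x, ‖f s x‖ ≤ Φ)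
    (hlip : ∀ s x y, ‖f s x - f s y‖ ≤ L * ‖x - y‖) (x0 : E) :
    ∃ x : ℝ → E, Continuous x ∧ ∀ t, 0 ≤ t → x t = x0 + ∫ s in (0 : ℝ)..t, f s (x s) := by
  have hΦ0 : 0 ≤ Φ := (norm_nonneg _).trans (hΦ 0 0)
  let X : BoundedContinuousFunction ℝ E → ℝ → E := fun u s => Real.exp (2 * L * max s 0) • u s
  have hX : ∀ u, Continuous (X u) := fun u => by
    have := u.continuous
    simp only [X]
    fun_prop
  have hI : ∀ u a b, IntervalIntegrable (fun s => f s (X u s)) volume a b := fun u a b =>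
    intInt_of_bdd (hmeas _ (hX u)) (fun s => hΦ _ _) a b
  let T : BoundedContinuousFunction ℝ E → BoundedContinuousFunction ℝ E := fun u =>
    BoundedContinuousFunction.ofNormedAddCommGroup
      (fun t => Real.exp (-(2 * L * max t 0)) • (x0 + ∫ s in (0 : ℝ)..max t 0, f s (X u s)))
      (by
        have := (intervalIntegral.continuous_primitive (hI u) 0).comp
          (show Continuous fun t : ℝ => max t 0 by fun_prop)
        exact (by fun_prop : Continuous fun t : ℝ => Real.exp (-(2 * L * max t 0))).smul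
          (continuous_const.add this))
      (‖x0‖ + Φ / L) (fun t => by
        have h0 : 0 ≤ max t 0 := le_max_right _ _
        set a := max t 0
        have h1 : ‖∫ s in (0 : ℝ)..a, f s (X u s)‖ ≤ Real.exp (2 * L * a) * (Φ / L) / 2 :=
          weight_est h0 (by positivity) fun s hs => by
            have : 1 ≤ Real.exp (2 * L * s) := Real.one_le_exp (by have := hs.1; positivity)
            calc _ ≤ Φ := hΦ _ _
              _ = L * (1 * (Φ / L)) := by field_simp
              _ ≤ _ := by gcongr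
        have h2 : Real.exp (-(2 * L * a)) ≤ 1 := Real.exp_le_one_iff.2 (by
          have : 0 ≤ 2 * L * a := by positivity
          linarith)
        have h3 : Real.exp (-(2 * L * a)) * Real.exp (2 * L * a) = 1 := by
          rw [← Real.exp_add]; simp
        have h4 := Real.exp_pos (-(2 * L * a))
        rw [norm_smul, Real.norm_eq_abs, abs_of_pos h4]
        have h5 : 0 ≤ Φ / L := by positivity
        calc _ ≤ Real.exp (-(2 * L * a)) * (‖x0‖ + Real.exp (2 * L * a) * (Φ / L) / 2) := by
              gcongr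
              exact (norm_add_le _ _).trans (by gcongr)
          _ = Real.exp (-(2 * L * a)) * ‖x0‖ +
              (Real.exp (-(2 * L * a)) * Real.exp (2 * L * a)) * (Φ / L) / 2 := by ring
          _ ≤ _ := by
              rw [h3]
              nlinarith [norm_nonneg x0])
  have hT : ContractingWith (1 / 2) T := by
    refine ⟨by norm_num, LipschitzWith.of_dist_le_mul fun u v => ?_⟩
    refine (BoundedContinuousFunction.dist_le (by positivity)).2 fun t => ?_
    have h0 : 0 ≤ max t 0 := le_max_right _ _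
    simp only [T, BoundedContinuousFunction.coe_ofNormedAddCommGroup]
    set a := max t 0
    rw [dist_eq_norm, ← smul_sub, add_sub_add_left_eq_sub,
      ← intervalIntegral.integral_sub (hI u _ _) (hI v _ _)]
    have h1 : ‖∫ s in (0 : ℝ)..a, (f s (X u s) - f s (X v s))‖ ≤
        Real.exp (2 * L * a) * dist u v / 2 :=
      weight_est h0 dist_nonneg fun s hs => by
        refine (hlip _ _ _).trans ?_
        simp only [X]
        rw [← smul_sub, norm_smul, Real.norm_eq_abs, abs_of_pos (Real.exp_pos _),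
          max_eq_left hs.1, ← dist_eq_norm]
        gcongr
        exact BoundedContinuousFunction.dist_coe_le_dist s
    have h3 : Real.exp (-(2 * L * a)) * Real.exp (2 * L * a) = 1 := by
      rw [← Real.exp_add]; simp
    have h4 := Real.exp_pos (-(2 * L * a))
    rw [norm_smul, Real.norm_eq_abs, abs_of_pos h4]
    calc _ ≤ Real.exp (-(2 * L * a)) * (Real.exp (2 * L * a) * dist u v / 2) := by gcongr
      _ = (Real.exp (-(2 * L * a)) * Real.exp (2 * L * a)) * dist u v / 2 := by ring
      _ = _ := by rw [h3]; push_cast; ring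
  obtain ⟨u, hu⟩ : ∃ u, T u = u := ⟨_, hT.fixedPoint_isFixedPt⟩
  refine ⟨X u, hX u, fun t ht => ?_⟩
  have := congrArg (fun v : BoundedContinuousFunction ℝ E => v t) hu
  simp only [T, BoundedContinuousFunction.coe_ofNormedAddCommGroup, max_eq_left ht] at this
  conv_lhs => simp only [X]
  rw [← this, smul_smul, max_eq_left ht, ← Real.exp_add]
  simp

theorem unique_sol {y z F G : ℝ → E} {x0 : E} {T L : ℝ} (hL : 0 ≤ L)
    (hy : ContinuousOn y (Icc 0 T)) (hz : ContinuousOn z (Icc 0 T))
    (hF : IntegrableOn F (Icc 0 T)) (hG : IntegrableOn G (Icc 0 T))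
    (hyF : ∀ t ∈ Icc 0 T, y t = x0 + ∫ s in (0 : ℝ)..t, F s)
    (hzG : ∀ t ∈ Icc 0 T, z t = x0 + ∫ s in (0 : ℝ)..t, G s)
    (hlip : ∀ s ∈ Icc 0 T, ‖F s - G s‖ ≤ L * ‖y s - z s‖) : ∀ t ∈ Icc 0 T, y t = z t := by
  intro t ht
  have hc : ContinuousOn (fun s => Real.exp (-(2 * L * s)) * ‖y s - z s‖) (Icc 0 T) :=
    (by fun_prop : Continuous fun s => Real.exp (-(2 * L * s))).continuousOn.mul (hy.sub hz).norm
  obtain ⟨a, ha, hmax⟩ := isCompact_Icc.exists_isMaxOn ⟨t, ht⟩ hc
  set m := Real.exp (-(2 * L * a)) * ‖y a - z a‖ with hm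
  have hm0 : 0 ≤ m := by positivity
  have hb : ∀ s ∈ Icc 0 T, ‖y s - z s‖ ≤ Real.exp (2 * L * s) * m := by
    intro s hs
    have h1 : Real.exp (-(2 * L * s)) * ‖y s - z s‖ ≤ m := hmax hs
    have h3 : Real.exp (2 * L * s) * Real.exp (-(2 * L * s)) = 1 := by
      rw [← Real.exp_add]; simp
    calc ‖y s - z s‖ = Real.exp (2 * L * s) * (Real.exp (-(2 * L * s)) * ‖y s - z s‖) := by
          rw [← mul_assoc, h3, one_mul]
      _ ≤ _ := by gcongr
  have hsub : Icc 0 a ⊆ Icc 0 T := Icc_subset_Icc_right ha.2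
  have h1 : ‖y a - z a‖ ≤ Real.exp (2 * L * a) * m / 2 := by
    rw [hyF a ha, hzG a ha, add_sub_add_left_eq_sub, ← intervalIntegral.integral_sub
      ((intervalIntegrable_iff_integrableOn_Icc_of_le ha.1).2 (hF.mono_set hsub))
      ((intervalIntegrable_iff_integrableOn_Icc_of_le ha.1).2 (hG.mono_set hsub))]
    exact weight_est ha.1 hm0 fun s hs => (hlip s (hsub hs)).trans (by
      gcongr; exact hb s (hsub hs))
  have h3 : Real.exp (-(2 * L * a)) * Real.exp (2 * L * a) = 1 := by
    rw [← Real.exp_add]; simp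
  have h4 : m ≤ m / 2 := by
    calc m ≤ Real.exp (-(2 * L * a)) * (Real.exp (2 * L * a) * m / 2) := by
          rw [hm]; gcongr
      _ = (Real.exp (-(2 * L * a)) * Real.exp (2 * L * a)) * m / 2 := by ring
      _ = m / 2 := by rw [h3, one_mul]
  have h5 : m = 0 := by linarith
  have := hb t ht
  rw [h5, mul_zero] at this
  exact sub_eq_zero.1 (norm_le_zero_iff.1 this)

lemma stay_open {α : Type} [TopologicalSpace α] {x : ℝ → α} (hx : Continuous x) {U : Set α}
    (hU : IsOpen U) (h : ∀ T, 0 ≤ T → (∀ s ∈ Ico 0 T, x s ∈ U) → x T ∈ U) :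
    ∀ t, 0 ≤ t → x t ∈ U := by
  by_contra hc
  push Not at hc
  set S : Set ℝ := {t | 0 ≤ t ∧ x t ∉ U} with hS
  have hcl : IsClosed S := isClosed_Ici.inter (hU.isClosed_compl.preimage hx)
  have hne : S.Nonempty := let ⟨t, h1, h2⟩ := hc; ⟨t, h1, h2⟩
  have hbd : BddBelow S := ⟨0, fun t ht => ht.1⟩
  have hmem := hcl.csInf_mem hne hbd
  refine hmem.2 (h _ hmem.1 fun s hs => ?_)
  by_contra hs'
  exact absurd (csInf_le hbd ⟨hs.1, hs'⟩) (not_le.2 hs.2)

lemma chain_le {φ : ℝ → ℝ} {a b h : ℝ} (hh : 0 < h) (hab : a ≤ b)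
    (hφ : ∀ s t, a ≤ s → s ≤ t → t ≤ b → t ≤ s + h → φ t ≤ φ s) : φ b ≤ φ a := by
  have key : ∀ n : ℕ, ∀ t, a ≤ t → t ≤ b → t ≤ a + n * h → φ t ≤ φ a := by
    intro n
    induction n with
    | zero =>
      intro t h1 _ h3
      have : t = a := by simp at h3; linarith
      rw [this]
    | succ n ih =>
      intro t h1 h2 h3
      push_cast at h3
      by_cases h4 : t ≤ a + h
      · exact hφ a t le_rfl h1 h2 h4
      · exact (hφ (t - h) t (by linarith) (by linarith) h2 (by linarith)).trans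
          (ih (t - h) (by linarith) (by linarith) (by linarith))
  obtain ⟨n, hn⟩ := exists_nat_ge ((b - a) / h)
  rw [div_le_iff₀ hh] at hn
  exact key n b hab le_rfl (by linarith)

end Vale.Agent.P072
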