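import Vale.Agent.P072.Flux
import Vale.Agent.P072.ODE

/-! Elementary properties of the mass-action field and the absorbing box. -/

namespace Vale.Agent.P072

open Finset

variable {d : ℕ}

lemma field_lip (N : Network d) (κ β : ℝ) : ∃ L : ℝ, 0 < L ∧
    ∀ k : (Fin d → ℕ) × (Fin d → ℕ) → ℝ, (∀ r ∈ N.R, |k r| ≤ κ) → ∀ x y : Fin d → ℝ,
      ‖x‖ ≤ β → ‖y‖ ≤ β → ‖N.field k x - N.field k y‖ ≤ L * ‖x - y‖ ∧ ‖N.field k x‖ ≤ L := by
  have key : ∀ z : Fin d → ℕ, ∃ K : ℝ, 0 ≤ K ∧ ∀ x y : Fin d → ℝ, ‖x‖ ≤ β → ‖y‖ ≤ β →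
      |∏ i, x i ^ z i - ∏ i, y i ^ z i| ≤ K * ‖x - y‖ ∧ |∏ i, x i ^ z i| ≤ K := by
    intro z
    have hcd : ContDiff ℝ 1 fun x : Fin d → ℝ => ∏ i, x i ^ z i := by fun_prop
    have hcp : IsCompact (Metric.closedBall (0 : Fin d → ℝ) β) := isCompact_closedBall _ _
    obtain ⟨K1, hK1⟩ := hcd.locallyLipschitz.locallyLipschitzOn.exists_lipschitzOnWith_of_compact hcp
    obtain ⟨K2, hK2⟩ := hcp.exists_bound_of_continuousOn hcd.continuous.continuousOn
    refine ⟨max K1 K2, le_max_of_le_left K1.2, fun x y hx hy => ⟨?_, ?_⟩⟩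
    · have := hK1.dist_le_mul x (by simpa using hx) y (by simpa using hy)
      rw [Real.dist_eq, dist_eq_norm] at this
      exact this.trans (by gcongr; exact le_max_left _ _)
    · exact (hK2 x (by simpa using hx)).trans (le_max_right _ _)
  choose K hK0 hK using key
  have hnn : 0 ≤ ∑ r ∈ N.R, |κ| * K r.1 * ‖reactionVector r‖ :=
    sum_nonneg fun r _ => by have := hK0 r.1; positivity
  refine ⟨∑ r ∈ N.R, |κ| * K r.1 * ‖reactionVector r‖ + 1, by linarith, fun k hk x y hx hy =>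
    ⟨?_, ?_⟩⟩
  · unfold Network.field
    rw [← sum_sub_distrib, add_mul, sum_mul]
    refine (norm_sum_le _ _).trans (le_add_of_le_of_nonneg (sum_le_sum fun r hr => ?_)
      (by positivity))
    rw [← sub_smul, norm_smul, ← mul_sub, Real.norm_eq_abs, abs_mul]
    have h1 := (hk r hr).trans (le_abs_self κ)
    have h2 := (hK r.1 x y hx hy).1
    calc _ ≤ |κ| * (K r.1 * ‖x - y‖) * ‖reactionVector r‖ := by gcongr
      _ = _ := by ring
  · unfold Network.field
    refine (norm_sum_le _ _).trans (le_add_of_le_of_nonneg (sum_le_sum fun r hr => ?_) zero_le_one)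
    rw [norm_smul, Real.norm_eq_abs, abs_mul]
    have h1 := (hk r hr).trans (le_abs_self κ)
    have h2 := (hK r.1 x y hx hy).2
    gcongr

lemma field_quasi (N : Network d) {k : (Fin d → ℕ) × (Fin d → ℕ) → ℝ} (hk : ∀ r ∈ N.R, 0 ≤ k r)
    {x : Fin d → ℝ} (hx : ∀ j, 0 ≤ x j) {i : Fin d} (hi : x i = 0) : 0 ≤ N.field k x i := by
  simp only [Network.field, Finset.sum_apply, Pi.smul_apply, smul_eq_mul, reactionVector]
  refine sum_nonneg fun r hr => ?_
  by_cases h : r.1 i = 0
  · have h1 : 0 ≤ ∏ j, x j ^ r.1 j := prod_nonneg fun j _ => pow_nonneg (hx j) _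
    have h2 := hk r hr
    rw [h]
    simp only [Nat.cast_zero, sub_zero]
    positivity
  · rw [prod_eq_zero (mem_univ i) (by rw [hi, zero_pow h])]
    simp

lemma field_mem (N : Network d) (k : (Fin d → ℕ) × (Fin d → ℕ) → ℝ) (x : Fin d → ℝ) :
    N.field k x ∈ N.stoich :=
  Submodule.sum_mem _ fun r hr => Submodule.smul_mem _ _ (Submodule.subset_span ⟨r, hr, rfl⟩)

lemma half_le_abs_sub {x c : ℝ} (hx : 0 < x) (hc : 0 < c) (h : 1 ≤ |Real.log x - Real.log c|) :
    c / 2 ≤ |x - c| := by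
  rw [le_abs] at h ⊢
  rcases h with h | h
  · left
    rw [← Real.log_div hx.ne' hc.ne'] at h
    have h1 := Real.log_le_sub_one_of_pos (div_pos hx hc)
    have h2 : 2 ≤ x / c := by linarith
    rw [le_div_iff₀ hc] at h2
    linarith
  · right
    rw [neg_sub, ← Real.log_div hc.ne' hx.ne'] at h
    have h1 := Real.log_le_sub_one_of_pos (div_pos hc hx)
    have h2 : 2 ≤ c / x := by linarith
    rw [le_div_iff₀ hx] at h2
    linarith

/-- The absorbing box. -/
lemma exists_box (c : Fin d → ℝ) (hc : ∀ i, 0 < c i) (C : ℝ) (hC : 0 ≤ C) :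
    ∃ lo hi : Fin d → ℝ, (∀ i, 0 < lo i) ∧ ∀ x w : Fin d → ℝ, (∀ i, 0 < x i) →
      ∑ i, w i * (x i - c i) = 0 → (∀ i, |Real.log (x i) - w i| ≤ C) → x ∈ Set.Icc lo hi := by
  set C' := C + ∑ i, |Real.log (c i)| with hC'
  have hS : 0 ≤ ∑ i, |Real.log (c i)| := sum_nonneg fun i _ => abs_nonneg _
  have hC0 : 0 ≤ C' := by positivity
  set B0 := ∑ i, C' * (c i * Real.exp C') with hB0
  refine ⟨fun i => Real.exp (Real.log (c i) - (C' + 1 + 2 * B0 / c i)),
    fun i => Real.exp (Real.log (c i) + (C' + 1 + 2 * B0 / c i)), fun i => Real.exp_pos _,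
    fun x w hx hw hcl => ?_⟩
  have hT : ∀ i, (|Real.log (x i) - Real.log (c i)| - C') * |x i - c i| ≤ w i * (x i - c i) := by
    intro i
    have h1 : |Real.log (x i) - Real.log (c i)| * |x i - c i| =
        (Real.log (x i) - Real.log (c i)) * (x i - c i) := by
      rw [← abs_mul]
      refine abs_of_nonneg ?_
      rcases le_total (x i) (c i) with h | h
      · exact mul_nonneg_of_nonpos_of_nonpos (by linarith [Real.log_le_log (hx i) h]) (by linarith)
      · exact mul_nonneg (by linarith [Real.log_le_log (hc i) h]) (by linarith)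
    have h2 : |Real.log (c i)| ≤ ∑ i, |Real.log (c i)| :=
      single_le_sum (f := fun i => |Real.log (c i)|) (fun i _ => abs_nonneg _) (mem_univ i)
    have h3 : |Real.log (x i) - w i - Real.log (c i)| ≤ C' :=
      (abs_sub _ _).trans (by linarith [hcl i])
    have h4 : (Real.log (x i) - w i - Real.log (c i)) * (x i - c i) ≤ C' * |x i - c i| := by
      refine (le_abs_self _).trans ?_
      rw [abs_mul]; gcongr
    nlinarith
  have hL : ∀ i, 0 ≤ (|Real.log (x i) - Real.log (c i)| - C') * |x i - c i| +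
      C' * (c i * Real.exp C') := by
    intro i
    have hci := hc i
    have hxi := hx i
    by_cases h : C' ≤ |Real.log (x i) - Real.log (c i)|
    · have : 0 ≤ (|Real.log (x i) - Real.log (c i)| - C') * |x i - c i| :=
        mul_nonneg (by linarith) (abs_nonneg _)
      positivity
    · push Not at h
      have h1 : x i ≤ c i * Real.exp C' := by
        rw [← Real.exp_log hxi, ← Real.exp_log hci, ← Real.exp_add]
        exact Real.exp_le_exp.2 (by linarith [le_abs_self (Real.log (x i) - Real.log (c i))])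
      have h2 : c i ≤ c i * Real.exp C' := le_mul_of_one_le_right hci.le (Real.one_le_exp hC0)
      have h3 : |x i - c i| ≤ c i * Real.exp C' := abs_le.2 ⟨by linarith, by linarith⟩
      have h4 := mul_nonneg (abs_nonneg (Real.log (x i) - Real.log (c i))) (abs_nonneg (x i - c i))
      have h5 := mul_le_mul_of_nonneg_left h3 hC0
      nlinarith
  have hA : ∀ j, |Real.log (x j) - Real.log (c j)| ≤ C' + 1 + 2 * B0 / c j := by
    intro j
    have h1 := single_le_sum (fun i _ => hL i) (mem_univ j)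
    have h2 := sum_le_sum fun i (_ : i ∈ univ) => hT i
    rw [sum_add_distrib] at h1
    have hcj := hc j
    have h3 : 0 ≤ C' * (c j * Real.exp C') := by positivity
    have h4 : 0 ≤ B0 := sum_nonneg fun i _ => by have := hc i; positivity
    by_contra hcon
    push Not at hcon
    have h5 : 0 ≤ 2 * B0 / c j := by positivity
    have h6 := half_le_abs_sub (hx j) hcj (by linarith)
    have h7 : (1 + 2 * B0 / c j) * (c j / 2) ≤
        (|Real.log (x j) - Real.log (c j)| - C') * |x j - c j| :=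
      mul_le_mul (by linarith) h6 (by positivity) (by linarith)
    have h8 : (1 + 2 * B0 / c j) * (c j / 2) = c j / 2 + B0 := by field_simp
    linarith
  refine ⟨fun j => ?_, fun j => ?_⟩
  · rw [← Real.le_log_iff_exp_le (hx j)]
    linarith [neg_abs_le (Real.log (x j) - Real.log (c j)), hA j]
  · rw [← Real.log_le_iff_le_exp (hx j)]
    linarith [le_abs_self (Real.log (x j) - Real.log (c j)), hA j]

lemma dot_stoich (N : Network d) {w : Fin d → ℝ} (hw : ∀ r ∈ N.R, ∑ i, w i * reactionVector r i = 0)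
    {v : Fin d → ℝ} (hv : v ∈ N.stoich) : ∑ i, w i * v i = 0 := by
  induction hv using Submodule.span_induction with
  | mem v hv => obtain ⟨r, hr, rfl⟩ := hv; exact hw r hr
  | zero => simp
  | add u v _ _ h1 h2 => simp only [Pi.add_apply, mul_add, sum_add_distrib, h1, h2, add_zero]
  | smul a v _ h =>
    have : ∑ i, w i * (a • v) i = a * ∑ i, w i * v i := by
      rw [mul_sum]; exact sum_congr rfl fun i _ => by simp only [Pi.smul_apply, smul_eq_mul]; ring
    rw [this, h, mul_zero]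

lemma last_exit {g : ℝ → ℝ} (hg : Continuous g) {a b c : ℝ} (hab : a ≤ b) (hb : g b < c) :
    ∃ t ∈ Set.Icc a b, (∀ u ∈ Set.Icc t b, g u ≤ c) ∧ (t = a ∨ g t = c) := by
  have ivt : ∀ u ∈ Set.Icc a b, c < g u → ∃ v ∈ Set.Icc u b, g v = c := fun u hu h =>
    intermediate_value_Icc' hu.2 hg.continuousOn ⟨hb.le, h.le⟩
  by_cases hS : (Set.Icc a b ∩ g ⁻¹' {c}).Nonempty
  · obtain ⟨t, ht, hmax⟩ := (isCompact_Icc.inter_right (isClosed_singleton.preimage hg)).exists_isGreatest hS
    refine ⟨t, ht.1, fun u hu => ?_, Or.inr ht.2⟩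
    by_contra h
    push Not at h
    obtain ⟨v, hv, hvc⟩ := ivt u ⟨ht.1.1.trans hu.1, hu.2⟩ h
    have h1 : v ≤ t := hmax ⟨⟨(ht.1.1.trans hu.1).trans hv.1, hv.2⟩, hvc⟩
    have h2 : u = v := le_antisymm hv.1 (h1.trans hu.1)
    rw [h2, hvc] at h
    exact lt_irrefl _ h
  · refine ⟨a, ⟨le_rfl, hab⟩, fun u hu => ?_, Or.inl rfl⟩
    by_contra h
    push Not at h
    obtain ⟨v, hv, hvc⟩ := ivt u hu h
    exact hS ⟨v, ⟨hu.1.trans hv.1, hv.2⟩, hvc⟩

end Vale.Agent.P072
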