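import Vale.Agent.P072.Close

/-! The convex Lyapunov function adapted to a finite family of vectors. -/

namespace Vale.Agent.P072

open Finset

section Closure

variable {ι : Type} [DecidableEq ι]

def Lam (H : Set (ι → ℝ)) : Set (ι → ℝ) :=
  Set.range (fun j : ι => (Pi.single j 1 : ι → ℝ)) ∪
    Set.image2 (fun (g : ι → ℝ) (i : ι) => (Pi.single i 1 - (g i)⁻¹ • g : ι → ℝ)) H Set.univ

def Hs (R : Set (ι → ℝ)) : ℕ → Set (ι → ℝ)
  | 0 => R
  | j + 1 => Hs R j ∪ Set.image2 (fun l l' => l - l') (Lam (Hs R j)) (Lam (Hs R j))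

lemma Lam_finite [Finite ι] {H : Set (ι → ℝ)} (h : H.Finite) : (Lam H).Finite :=
  (Set.finite_range _).union (h.image2 _ Set.finite_univ)

lemma Hs_finite [Finite ι] {R : Set (ι → ℝ)} (h : R.Finite) : ∀ j, (Hs R j).Finite
  | 0 => h
  | j + 1 => (Hs_finite h j).union
      ((Lam_finite (Hs_finite h j)).image2 _ (Lam_finite (Hs_finite h j)))

lemma Hs_mono (R : Set (ι → ℝ)) : Monotone (Hs R) :=
  monotone_nat_of_le_succ fun _ => Set.subset_union_left

end Closure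

lemma exists_mu {S : Set ℝ} (hS : S.Finite) : ∃ μ : ℝ, 0 < μ ∧ μ ≤ 1 ∧ ∀ s ∈ S, s ≠ 0 → μ ≤ |s| := by
  induction S, hS using Set.Finite.induction_on with
  | empty => exact ⟨1, one_pos, le_rfl, by simp⟩
  | @insert a s _ _ ih =>
    obtain ⟨μ, h0, h1, h2⟩ := ih
    by_cases ha : a = 0
    · refine ⟨μ, h0, h1, fun t ht ht0 => ?_⟩
      rcases ht with rfl | ht
      · exact absurd ha ht0
      · exact h2 t ht ht0
    · refine ⟨min μ |a|, lt_min h0 (abs_pos.2 ha), (min_le_left _ _).trans h1, fun t ht ht0 => ?_⟩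
      rcases ht with rfl | ht
      · exact min_le_right _ _
      · exact (min_le_left _ _).trans (h2 t ht ht0)

lemma exists_B (a b c : ℝ) (ha : 0 ≤ a) (hb : 0 ≤ b) :
    ∃ B : ℝ, 1 ≤ B ∧ c ≤ B ∧ a * B + b < Real.exp B := by
  have hc := abs_nonneg c
  have hc' := le_abs_self c
  refine ⟨4 * (a + b + 1) + |c|, by linarith, by linarith, ?_⟩
  set B := 4 * (a + b + 1) + |c| with hB
  have h1 : B / 2 + 1 ≤ Real.exp (B / 2) := Real.add_one_le_exp _
  have h2 : Real.exp B = Real.exp (B / 2) * Real.exp (B / 2) := by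
    rw [← Real.exp_add]; congr 1; ring
  have h3 : 1 ≤ B := by linarith
  have h4 : (B / 2 + 1) * (B / 2 + 1) ≤ Real.exp B := by
    rw [h2]; exact mul_le_mul h1 h1 (by linarith) (Real.exp_pos _).le
  have h5 : B * (a + b + 1) ≤ B * (B / 4) := by gcongr; linarith
  nlinarith

lemma exists_data {ι : Type} [Fintype ι] [DecidableEq ι] {R : Set (ι → ℝ)} (hR : R.Finite)
    (δ : ℝ) : ∃ D : Data ι, R ⊆ D.G D.n ∧ δ ≤ D.B ∧
      ∀ g ∈ R, 4 * ∑ i, |g i| ≤ D.μ ^ D.n * D.M := by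
  set n := Fintype.card ι
  obtain ⟨μ, h0, h1, h2⟩ := exists_mu
    (((Hs_finite hR n).image2 (fun (g : ι → ℝ) (i : ι) => g i) Set.finite_univ))
  obtain ⟨L1, hL1⟩ := (hR.image fun g => ∑ i, |g i|).bddAbove
  have hμn : 0 < μ ^ n := pow_pos h0 _
  set M := (4 + 4 * |L1|) / μ ^ n with hM
  have hMμ : μ ^ n * M = 4 + 4 * |L1| := by rw [hM]; field_simp
  have hM0 : 0 ≤ M := by positivity
  obtain ⟨B, hB1, hB2, hB3⟩ := exists_B (2 * ((n : ℝ) + 1) * ((n + 2) * M ^ (2 ^ n)))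
    (2 * ((n : ℝ) + 1) * ((n + 2) + 6)) δ (by positivity) (by positivity)
  refine ⟨⟨n, fun k => Hs R (n - k), fun k => Lam (Hs R (n - (k + 1))), μ, M, B, le_rfl,
    fun k _ => Hs_mono R (by omega), fun k _ g hg i _ => Or.inr ⟨g, hg, i, trivial, rfl⟩,
    fun k hk l hl l' hl' => ?_, fun k _ j => Or.inl ⟨j, rfl⟩, h0, h1,
    fun k _ g hg i hi => h2 _ ⟨g, Hs_mono R (Nat.sub_le _ _) hg, i, trivial, rfl⟩ hi,
    by rw [hMμ]; linarith [abs_nonneg L1], hB1, by linarith⟩, ?_, hB2, fun g hg => ?_⟩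
  · have : n - k = (n - (k + 1)) + 1 := by omega
    simp only [this]
    exact Or.inr ⟨l, hl, l', hl', rfl⟩
  · simp [Hs]
  · have := hL1 ⟨g, hg, rfl⟩
    have := le_abs_self L1
    simp only [hMμ]
    linarith

namespace Data

variable {ι : Type} [Fintype ι] [DecidableEq ι] (D : Data ι)

lemma value_le {x : ι → ℝ} (hx : ∀ i, 0 < x i) {ρ : ι → ℕ} {w : ι → ℝ} {e : ℕ → Bool}
    (h : D.Full ρ w e) : D.value x ρ w e ≤ ∑ i, x i * (Real.log (x i) + D.top) := by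
  refine sum_le_sum fun i _ => ?_
  have h1 := D.le_cost e (h.2.1 i) (w i)
  have h2 : Real.exp (w i - D.top) = x i * Real.exp (w i - D.top - Real.log (x i)) := by
    rw [Real.exp_sub _ (Real.log _), Real.exp_log (hx i)]
    field_simp [(hx i).ne']
  have h3 := Real.add_one_le_exp (w i - D.top - Real.log (x i))
  have h4 := hx i
  nlinarith

lemma exists_full (s : ℝ) : ∃ ρ w e, D.Full ρ w e ∧ ∀ i, s - D.n * D.top ≤ w i ∧ w i ≤ s := by
  let ρ : ι → ℕ := fun i => (Fintype.equivFin ι i : ℕ)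
  have hρ : Function.Injective ρ := fun i j h => (Fintype.equivFin ι).injective (Fin.ext h)
  have hlt : ∀ i, ρ i < D.n := fun i => (Fintype.equivFin ι i).2.trans_le D.card_le
  obtain ⟨w, e, hV, -, -, h3, h4⟩ := D.extend hρ (fun _ => s) 0 le_rfl 0 (fun _ _ _ _ => le_rfl)
    (w := fun _ => 0) (e := fun _ => true) (fun i hi => by omega) (fun i j _ hj => by omega)
    D.n (by omega)
  rw [zero_add] at hV h3 h4
  refine ⟨ρ, w, e, ⟨hρ, hlt, hV⟩, fun i => ⟨?_, h3 i (Nat.zero_le _) (hlt i)⟩⟩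
  simpa using h4 i i (Nat.zero_le _) (hlt i) le_rfl

noncomputable def V (x : ι → ℝ) : ℝ :=
  sSup {v | ∃ ρ w e, D.Full ρ w e ∧ v = D.value x ρ w e}

lemma bdd {x : ι → ℝ} (hx : ∀ i, 0 < x i) :
    BddAbove {v | ∃ ρ w e, D.Full ρ w e ∧ v = D.value x ρ w e} :=
  ⟨_, fun _ ⟨_, _, _, h, hv⟩ => hv ▸ D.value_le hx h⟩

lemma nonempty (x : ι → ℝ) : {v | ∃ ρ w e, D.Full ρ w e ∧ v = D.value x ρ w e}.Nonempty := by
  obtain ⟨ρ, w, e, h, -⟩ := D.exists_full 0
  exact ⟨_, ρ, w, e, h, rfl⟩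

lemma value_le_V {x : ι → ℝ} (hx : ∀ i, 0 < x i) {ρ : ι → ℕ} {w : ι → ℝ} {e : ℕ → Bool}
    (h : D.Full ρ w e) : D.value x ρ w e ≤ D.V x :=
  le_csSup (D.bdd hx) ⟨ρ, w, e, h, rfl⟩

lemma V_le {x : ι → ℝ} (hx : ∀ i, 0 < x i) : D.V x ≤ ∑ i, x i * (Real.log (x i) + D.top) :=
  csSup_le (D.nonempty x) fun _ ⟨_, _, _, h, hv⟩ => hv ▸ D.value_le hx h

lemma le_V {x : ι → ℝ} (hx : ∀ i, 0 < x i) (s : ℝ) :
    (∑ i, x i) * (s - D.n * D.top) - D.n * Real.exp s ≤ D.V x := by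
  obtain ⟨ρ, w, e, h, hw⟩ := D.exists_full s
  refine le_trans ?_ (D.value_le_V hx h)
  have key : ∀ i, x i * (s - D.n * D.top) - Real.exp s ≤ x i * w i - D.cost e (ρ i) (w i) := by
    intro i
    have h1 := D.cost_le e (ρ i) (w i)
    have h2 : Real.exp (w i) ≤ Real.exp s := Real.exp_le_exp.2 (hw i).2
    have h3 := mul_le_mul_of_nonneg_left (hw i).1 (hx i).le
    linarith
  have hsum := sum_le_sum fun i (_ : i ∈ univ) => key i
  rw [sum_sub_distrib, ← sum_mul, sum_const, card_univ, nsmul_eq_mul] at hsum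
  have hcard : (Fintype.card ι : ℝ) ≤ D.n := by exact_mod_cast D.card_le
  have := mul_le_mul_of_nonneg_right hcard (Real.exp_pos s).le
  unfold value
  linarith

lemma exists_good {x : ι → ℝ} (hx : ∀ i, 0 < x i) {τ : ℝ} (hτ : 0 < τ) :
    ∃ ρ w e, D.Good x τ ρ w e ∧ D.V x - τ ≤ D.value x ρ w e := by
  obtain ⟨v, ⟨ρ, w, e, h, rfl⟩, hv⟩ :=
    exists_lt_of_lt_csSup (D.nonempty x) (show D.V x - τ < D.V x by linarith)
  exact ⟨ρ, w, e, ⟨h, fun ρ' w' e' h' => by linarith [D.value_le_V hx h']⟩, hv.le⟩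

end Data

/-- The Lyapunov function. -/
theorem lyap {ι : Type} [Fintype ι] [DecidableEq ι] {R : Set (ι → ℝ)} (hR : R.Finite) (δ : ℝ) :
    ∃ (V : (ι → ℝ) → ℝ) (C : ℝ), 0 ≤ C ∧ ∀ x : ι → ℝ, (∀ i, 0 < x i) →
      V x ≤ ∑ i, x i * (Real.log (x i) + C) ∧
      (∀ s, (∑ i, x i) * (s - C) - C * Real.exp s ≤ V x) ∧
      ∀ τ > 0, ∃ w : ι → ℝ,
        (∀ x' : ι → ℝ, (∀ i, 0 < x' i) → V x - τ + ∑ i, w i * (x' i - x i) ≤ V x') ∧
        (∀ i, |Real.log (x i) - w i| ≤ C) ∧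
        ∀ g ∈ R, 0 < ∑ i, g i * w i → 1 ≤ ∑ i, g i * w i ∧ δ ≤ ∑ i, g i * Real.log (x i) := by
  obtain ⟨D, hG, hδ, hL⟩ := exists_data hR δ
  have htop := D.top_pos
  have hn : (0 : ℝ) ≤ D.n := Nat.cast_nonneg _
  have hnt : 0 ≤ D.n * D.top := by positivity
  refine ⟨D.V, 2 * ((D.n + 1) * (D.top + 1)), by positivity, fun x hx => ⟨?_, fun s => ?_,
    fun τ hτ => ?_⟩⟩
  · refine (D.V_le hx).trans (sum_le_sum fun i _ => ?_)
    have := hx i
    gcongr
    nlinarith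
  · refine le_trans ?_ (D.le_V hx s)
    have h1 : 0 ≤ ∑ i, x i := sum_nonneg fun i _ => (hx i).le
    have h2 := Real.exp_pos s
    have h3 : (∑ i, x i) * (s - 2 * ((D.n + 1) * (D.top + 1))) ≤
        (∑ i, x i) * (s - D.n * D.top) := mul_le_mul_of_nonneg_left (by nlinarith) h1
    have h4 : D.n * Real.exp s ≤ 2 * ((D.n + 1) * (D.top + 1)) * Real.exp s :=
      mul_le_mul_of_nonneg_right (by nlinarith) h2.le
    linarith
  · obtain ⟨τ', h0, h1, h2⟩ : ∃ τ' : ℝ, 0 < τ' ∧ τ' ≤ τ ∧ ∀ i, τ' ≤ x i / 2 := by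
      obtain ⟨μ, a0, -, a2⟩ := exists_mu (Set.finite_range fun i => x i / 2)
      refine ⟨min μ τ, lt_min a0 hτ, min_le_right _ _, fun i => (min_le_left _ _).trans ?_⟩
      have hi := hx i
      have := a2 _ ⟨i, rfl⟩ (by positivity)
      rwa [abs_of_pos (by positivity)] at this
    obtain ⟨ρ, w, e, hg, hv⟩ := D.exists_good hx h0
    have hcl := hg.close D hx h2
    have hlo := D.lo_le_top e le_rfl
    refine ⟨w, fun x' hx' => ?_, fun i => (hcl i).trans (by nlinarith), fun g hgR hpos => ?_⟩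
    · refine le_trans ?_ (D.value_le_V hx' hg.1)
      have : D.value x' ρ w e = D.value x ρ w e + ∑ i, w i * (x' i - x i) := by
        unfold Data.value
        rw [← sum_add_distrib]
        exact sum_congr rfl fun i _ => by ring
      linarith
    · have hgap := D.gap hg.1.1 D.n le_rfl hg.1.2.2 g (hG hgR)
        (fun i hi => absurd (hg.1.2.1 i) (by omega))
      change ∑ i, g i * w i = 0 ∨ _ ≤ |∑ i, g i * w i| at hgap
      rcases hgap with h | h
      · exact absurd h hpos.ne'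
      rw [abs_of_pos hpos, Data.hi, D.r_n] at h
      have hM := D.M_big
      have hB := D.B_le_lo e D.n
      have hB1 := D.B_one
      have hlp := D.lo_pos e D.n
      have a1 : D.μ ^ D.n * (D.lo e D.n * D.M) = (D.μ ^ D.n * D.M) * D.lo e D.n := by ring
      rw [a1] at h
      have a2 : ∑ i, g i * w i - ∑ i, g i * Real.log (x i) ≤ (∑ i, |g i|) * (2 * D.lo e D.n) := by
        rw [← sum_sub_distrib, sum_mul]
        refine sum_le_sum fun i _ => ?_
        rw [← mul_sub]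
        refine (le_abs_self _).trans ?_
        rw [abs_mul, abs_sub_comm]
        exact mul_le_mul_of_nonneg_left (hcl i) (abs_nonneg _)
      have a3 := hL g hgR
      constructor
      · nlinarith
      · nlinarith

end Vale.Agent.P072
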