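import Vale.Agent.P072.Defs
import Vale.Agent.P072.Lyap

/-! The flux inequality for weakly reversible networks. -/

namespace Vale.Agent.P072

open Finset MeasureTheory

lemma exists_cross {α : Type} {Rel : α → α → Prop} (a : α → ℝ) (θ : ℝ) {u v : α}
    (h : Relation.TransGen Rel u v) (hu : θ < a u) (hv : a v ≤ θ) :
    ∃ z z', Rel z z' ∧ θ < a z ∧ a z' ≤ θ := by
  induction h with
  | single h => exact ⟨_, _, h, hu, hv⟩
  | @tail b c _ hbc ih =>
    by_cases hb : a b ≤ θ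
    · exact ih hb
    · exact ⟨b, c, hbc, not_le.1 hb, hv⟩

lemma rise_le {α : Type} [DecidableEq α] (R : Finset (α × α)) (a : α → ℝ) {u v : α}
    (h : Relation.TransGen (fun p q => (p, q) ∈ R) u v) :
    a u - a v ≤ ∑ r ∈ R, if a v < a r.1 then max (a r.1 - a r.2) 0 else 0 := by
  have hnn : ∀ r ∈ R, 0 ≤ if a v < a r.1 then max (a r.1 - a r.2) 0 else 0 := fun r _ => by
    split_ifs
    · exact le_max_right _ _
    · exact le_rfl
  have hsub : Set.Ico (a v) (a u) ⊆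
      ⋃ r ∈ R.filter (fun r => a v < a r.1), Set.Ico (a r.2) (a r.1) := by
    intro θ hθ
    obtain ⟨z, z', h1, h2, h3⟩ := exists_cross a θ h hθ.2 hθ.1
    simp only [Set.mem_iUnion]
    exact ⟨(z, z'), mem_filter.2 ⟨h1, hθ.1.trans_lt h2⟩, h3, h2⟩
  have h1 := (measure_mono (μ := volume) hsub).trans (measure_biUnion_finset_le _ _)
  simp only [Real.volume_Ico] at h1
  rw [← ENNReal.ofReal_le_ofReal_iff (sum_nonneg hnn), ENNReal.ofReal_sum_of_nonneg hnn]
  refine h1.trans (le_of_eq ?_)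
  rw [sum_filter]
  refine sum_congr rfl fun r _ => ?_
  split_ifs
  · rw [ENNReal.ofReal_max]; simp
  · simp

/-- The flux inequality. -/
lemma flux {α : Type} [DecidableEq α] (R : Finset (α × α))
    (hR : ∀ r ∈ R, Relation.TransGen (fun p q => (p, q) ∈ R) r.2 r.1) (a m : α → ℝ)
    (k : α × α → ℝ) {ε : ℝ} (hε : 0 < ε) (hk : ∀ r ∈ R, ε ≤ k r ∧ k r ≤ ε⁻¹)
    (hm : ∀ y, 0 ≤ m y)
    (hsep : ∀ r ∈ R, ∀ r' ∈ R, a r.1 < a r'.1 → 2 * R.card * (ε⁻¹ * ε⁻¹) * m r.1 ≤ m r'.1) :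
    ∑ r ∈ R, k r * m r.1 * (a r.2 - a r.1) ≤
      -(1 / 2) * ∑ r ∈ R, k r * m r.1 * max (a r.1 - a r.2) 0 := by
  set Dn := ∑ r ∈ R, k r * m r.1 * max (a r.1 - a r.2) 0 with hDn
  have hsplit : ∑ r ∈ R, k r * m r.1 * (a r.2 - a r.1) =
      ∑ r ∈ R, k r * m r.1 * max (a r.2 - a r.1) 0 - Dn := by
    rw [hDn, ← sum_sub_distrib]
    refine sum_congr rfl fun r _ => ?_
    rcases le_total (a r.1) (a r.2) with h | h
    · rw [max_eq_left (by linarith), max_eq_right (by linarith)]; ring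
    · rw [max_eq_right (by linarith), max_eq_left (by linarith)]; ring
  have key : ∀ r ∈ R, 2 * R.card * (k r * m r.1 * max (a r.2 - a r.1) 0) ≤ Dn := by
    intro r hr
    have h1 : max (a r.2 - a r.1) 0 ≤
        ∑ r' ∈ R, if a r.1 < a r'.1 then max (a r'.1 - a r'.2) 0 else 0 :=
      max_le (rise_le R a (hR r hr)) (sum_nonneg fun r' _ => by
        split_ifs
        · exact le_max_right _ _
        · exact le_rfl)
    have hk0 : 0 ≤ k r := hε.le.trans (hk r hr).1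
    have hm0 := hm r.1
    calc 2 * R.card * (k r * m r.1 * max (a r.2 - a r.1) 0)
        ≤ 2 * R.card * (ε⁻¹ * m r.1 *
          ∑ r' ∈ R, if a r.1 < a r'.1 then max (a r'.1 - a r'.2) 0 else 0) := by
          have := (hk r hr).2
          have := le_max_right (a r.2 - a r.1) 0
          gcongr
      _ = ∑ r' ∈ R, 2 * R.card * (ε⁻¹ * m r.1) *
          (if a r.1 < a r'.1 then max (a r'.1 - a r'.2) 0 else 0) := by
          rw [← mul_sum]; ring
      _ ≤ Dn := by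
          refine sum_le_sum fun r' hr' => ?_
          have hk1 := (hk r' hr').1
          have hm1 := hm r'.1
          have hmx := le_max_right (a r'.1 - a r'.2) 0
          split_ifs with hlt
          · refine mul_le_mul_of_nonneg_right ?_ hmx
            have h2 := hsep r hr r' hr' hlt
            calc 2 * R.card * (ε⁻¹ * m r.1) = ε * (2 * R.card * (ε⁻¹ * ε⁻¹) * m r.1) := by
                  field_simp
              _ ≤ k r' * m r'.1 := mul_le_mul hk1 h2 (by positivity) (hε.le.trans hk1)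
          · rw [mul_zero]
            exact mul_nonneg (mul_nonneg (hε.le.trans hk1) hm1) hmx
  rcases R.eq_empty_or_nonempty with h0 | h0
  · simp [h0, hDn]
  · have hc : (0 : ℝ) < R.card := by exact_mod_cast card_pos.2 h0
    have h1 := sum_le_sum key
    rw [← mul_sum, sum_const, nsmul_eq_mul] at h1
    rw [hsplit]
    have : 2 * ∑ r ∈ R, k r * m r.1 * max (a r.2 - a r.1) 0 ≤ Dn := by
      refine le_of_mul_le_mul_left ?_ hc
      linarith
    linarith

variable {d : ℕ}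

lemma dot_field (N : Network d) (k : (Fin d → ℕ) × (Fin d → ℕ) → ℝ) (x w : Fin d → ℝ) :
    ∑ i, w i * N.field k x i = ∑ r ∈ N.R, k r * (∏ i, x i ^ r.1 i) *
      (∑ i, w i * r.2 i - ∑ i, w i * r.1 i) := by
  simp only [Network.field, Finset.sum_apply, Pi.smul_apply, smul_eq_mul, reactionVector, mul_sum]
  rw [sum_comm]
  refine sum_congr rfl fun r _ => ?_
  rw [← sum_sub_distrib, mul_sum]
  exact sum_congr rfl fun i _ => by ring

/-- The Lyapunov function of a set `Z` of species. -/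
theorem lyapZ (N : Network d) (hN : N.WeaklyReversible) {ε : ℝ} (hε : 0 < ε) (Z : Finset (Fin d))
    (Λ : ℝ) (hΛ : 0 ≤ Λ) :
    ∃ (V : (Fin d → ℝ) → ℝ) (C : ℝ), 0 ≤ C ∧ ∀ x : Fin d → ℝ, (∀ i, 0 < x i) →
      V x ≤ ∑ i ∈ Z, x i * (Real.log (x i) + C) ∧
      (∀ s, (∑ i ∈ Z, x i) * (s - C) - C * Real.exp s ≤ V x) ∧
      ∀ τ > 0, ∃ w : Fin d → ℝ,
        (∀ x' : Fin d → ℝ, (∀ i, 0 < x' i) → V x - τ + ∑ i, w i * (x' i - x i) ≤ V x') ∧
        (∀ i ∈ Z, |Real.log (x i) - w i| ≤ C) ∧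
        ∀ x' : Fin d → ℝ, (∀ i, 0 < x' i) → (∀ i ∈ Z, |Real.log (x' i) - Real.log (x i)| ≤ 1) →
          (∀ i, i ∉ Z → |Real.log (x' i)| ≤ Λ) →
          ∀ k : (Fin d → ℕ) × (Fin d → ℕ) → ℝ, (∀ r ∈ N.R, ε ≤ k r ∧ k r ≤ ε⁻¹) →
            ∑ i, w i * N.field k x' i ≤ 0 ∧
            ((∃ r ∈ N.R, ∑ i, w i * reactionVector r i ≠ 0) →
              ∃ r ∈ N.R, ∑ i, w i * N.field k x' i ≤ -(ε / 2) * ∏ i, x' i ^ r.1 i) := by
  obtain ⟨Y, hY⟩ := ((N.C ×ˢ N.C).finite_toSet.image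
    fun p => ∑ i, |(p.2 i : ℝ) - (p.1 i : ℝ)|).bddAbove
  set Nn : ℝ := 2 * N.R.card * (ε⁻¹ * ε⁻¹) with hNn
  have hNn0 : 0 ≤ Nn := by positivity
  obtain ⟨V, C, hC, hV⟩ := lyap (ι := Z) ((N.C ×ˢ N.C).finite_toSet.image
    fun p => fun i : Z => (p.2 i : ℝ) - (p.1 i : ℝ)) (Nn + Y * (1 + Λ))
  refine ⟨fun x => V fun i => x i, C, hC, fun x hx => ?_⟩
  obtain ⟨h1, h2, h3⟩ := hV (fun i => x i) fun i => hx i
  refine ⟨?_, fun s => ?_, fun τ hτ => ?_⟩
  · rwa [← sum_coe_sort Z]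
  · rw [← sum_coe_sort Z]; exact h2 s
  obtain ⟨w, hw1, hw2, hw3⟩ := h3 τ hτ
  set W : Fin d → ℝ := fun i => if h : i ∈ Z then w ⟨i, h⟩ else 0 with hW
  have hsum : ∀ u : Fin d → ℝ, ∑ i, W i * u i = ∑ i : Z, w i * u i := by
    intro u
    rw [← sum_subset (subset_univ Z) (fun i _ hi => by simp [hW, hi]), ← sum_coe_sort Z]
    exact sum_congr rfl fun i _ => by simp [hW, i.2]
  refine ⟨W, fun x' hx' => ?_, fun i hi => ?_, fun x' hx' hc hΛ' k hk => ?_⟩
  · rw [hsum]; exact hw1 _ fun i => hx' i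
  · simpa [hW, hi] using hw2 ⟨i, hi⟩
  set a : (Fin d → ℕ) → ℝ := fun y => ∑ i, W i * y i with ha
  have hw4 : ∀ y ∈ N.C, ∀ z ∈ N.C, a y < a z → 1 ≤ a z - a y ∧
      Nn + Y * (1 + Λ) ≤ ∑ i : Z, ((z i : ℝ) - y i) * Real.log (x i) := by
    intro y hy z hz hlt
    have e1 : a z - a y = ∑ i : Z, ((z i : ℝ) - y i) * w i := by
      simp only [ha, hsum]
      rw [← sum_sub_distrib]
      exact sum_congr rfl fun i _ => by ring
    rw [e1]
    exact hw3 _ ⟨(y, z), by simp [hy, hz], rfl⟩ (by rw [← e1]; linarith)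
  have hm : ∀ y : Fin d → ℕ, 0 < ∏ i, x' i ^ y i := fun y => prod_pos fun i _ => pow_pos (hx' i) _
  have hfl := flux N.R hN a (fun y => ∏ i, x' i ^ y i) k hε hk (fun y => (hm y).le) (by
    intro r hr r' hr' hlt
    have hy := (N.mem r hr).1
    have hz := (N.mem r' hr').1
    have b1 := (hw4 _ hy _ hz hlt).2
    have b2 := hY ⟨(r.1, r'.1), by simp [hy, hz], rfl⟩
    simp only at b2
    have b3 : ∀ y : Fin d → ℕ, Real.log (∏ i, x' i ^ y i) = ∑ i, (y i : ℝ) * Real.log (x' i) := by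
      intro y
      rw [Real.log_prod fun i _ => (pow_pos (hx' i) _).ne']
      exact sum_congr rfl fun i _ => Real.log_pow _ _
    have b4 : ∑ i : Z, ((r'.1 i : ℝ) - r.1 i) * Real.log (x i) =
        ∑ i, if i ∈ Z then ((r'.1 i : ℝ) - r.1 i) * Real.log (x i) else 0 := by
      rw [← sum_filter, filter_mem_eq_inter, univ_inter, ← sum_coe_sort Z]
    have b5 : ∑ i, (if i ∈ Z then ((r'.1 i : ℝ) - r.1 i) * Real.log (x i) else 0) ≤
        ∑ i, (((r'.1 i : ℝ) - r.1 i) * Real.log (x' i) + |(r'.1 i : ℝ) - r.1 i| * (1 + Λ)) := by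
      refine sum_le_sum fun i _ => ?_
      have c0 := abs_nonneg ((r'.1 i : ℝ) - r.1 i)
      split_ifs with hi
      · have c1 := hc i hi
        have c2 : ((r'.1 i : ℝ) - r.1 i) * (Real.log (x i) - Real.log (x' i)) ≤
            |(r'.1 i : ℝ) - r.1 i| * 1 := by
          refine (le_abs_self _).trans ?_
          rw [abs_mul, abs_sub_comm (Real.log (x i))]
          gcongr
        nlinarith
      · have c1 := hΛ' i hi
        have c2 : -(((r'.1 i : ℝ) - r.1 i) * Real.log (x' i)) ≤ |(r'.1 i : ℝ) - r.1 i| * Λ := by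
          refine (neg_le_abs _).trans ?_
          rw [abs_mul]
          gcongr
        nlinarith
    rw [sum_add_distrib, ← sum_mul] at b5
    have b6 : (∑ i, |(r'.1 i : ℝ) - r.1 i|) * (1 + Λ) ≤ Y * (1 + Λ) := by gcongr
    have b7 : Nn ≤ Real.log (∏ i, x' i ^ r'.1 i) - Real.log (∏ i, x' i ^ r.1 i) := by
      rw [b3, b3, ← sum_sub_distrib]
      have : ∑ i, ((r'.1 i : ℝ) * Real.log (x' i) - r.1 i * Real.log (x' i)) =
        ∑ i, ((r'.1 i : ℝ) - r.1 i) * Real.log (x' i) := sum_congr rfl fun i _ => by ring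
      linarith
    rw [← Real.log_div (hm _).ne' (hm _).ne'] at b7
    have b8 := Real.log_le_sub_one_of_pos (div_pos (hm r'.1) (hm r.1))
    have b9 : Nn ≤ (∏ i, x' i ^ r'.1 i) / ∏ i, x' i ^ r.1 i := by linarith
    rw [le_div_iff₀ (hm _)] at b9
    exact b9)
  rw [dot_field]
  have hnn : ∀ r ∈ N.R, 0 ≤ k r * (∏ i, x' i ^ r.1 i) * max (a r.1 - a r.2) 0 := fun r hr =>
    mul_nonneg (mul_nonneg (hε.le.trans (hk r hr).1) (hm _).le) (le_max_right _ _)
  refine ⟨hfl.trans (by linarith [sum_nonneg hnn]), fun ⟨r, hr, hne⟩ => ?_⟩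
  obtain ⟨r0, hr0, hdown⟩ : ∃ r0 ∈ N.R, a r0.2 < a r0.1 := by
    have e1 : ∑ i, W i * reactionVector r i = a r.2 - a r.1 := by
      simp only [ha, reactionVector]
      rw [← sum_sub_distrib]
      exact sum_congr rfl fun i _ => by ring
    rw [e1] at hne
    rcases lt_or_gt_of_ne hne with h | h
    · exact ⟨r, hr, by linarith⟩
    · obtain ⟨z, z', q1, q2, q3⟩ := exists_cross a (a r.1) (hN r hr) (by linarith) le_rfl
      exact ⟨(z, z'), q1, q3.trans_lt q2⟩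
  refine ⟨r0, hr0, hfl.trans ?_⟩
  have c1 := single_le_sum hnn hr0
  have c2 := (hw4 _ (N.mem r0 hr0).2 _ (N.mem r0 hr0).1 hdown).1
  have c3 : ε * (∏ i, x' i ^ r0.1 i) * 1 ≤ k r0 * (∏ i, x' i ^ r0.1 i) * max (a r0.1 - a r0.2) 0 := by
    have := (hk r0 hr0).1
    have := hm r0.1
    have := c2.trans (le_max_left _ 0)
    have : 0 ≤ k r0 := by linarith
    gcongr
  linarith

end Vale.Agent.P072
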