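import Vale.Agent.P072.Dyn

/-! Global existence and the main theorems. -/

namespace Vale.Agent.P072

open Finset MeasureTheory

variable {d : ℕ}

def clamp (β : ℝ) (x : Fin d → ℝ) : Fin d → ℝ := fun i => max (-β) (min β (x i))

lemma clamp_norm {β : ℝ} (hβ : 0 ≤ β) (x : Fin d → ℝ) : ‖clamp β x‖ ≤ β :=
  (pi_norm_le_iff_of_nonneg hβ).2 fun i => by
    rw [Real.norm_eq_abs, abs_le]
    exact ⟨le_max_left _ _, max_le (by linarith) (min_le_left _ _)⟩

lemma clamp_lip (β : ℝ) (x y : Fin d → ℝ) : ‖clamp β x - clamp β y‖ ≤ ‖x - y‖ :=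
  (pi_norm_le_iff_of_nonneg (norm_nonneg _)).2 fun i => by
    refine le_trans ?_ (norm_le_pi_norm (x - y) i)
    simp only [clamp, Pi.sub_apply, Real.norm_eq_abs]
    refine (abs_max_sub_max_le_max _ _ _ _).trans (max_le (by simp) ?_)
    exact (abs_min_sub_min_le_max _ _ _ _).trans (max_le (by simp) le_rfl)

lemma clamp_eq {β : ℝ} {x : Fin d → ℝ} (h : ∀ i, 0 < x i ∧ x i < β) : clamp β x = x :=
  funext fun i => by
    have := h i
    simp only [clamp]
    rw [min_eq_right this.2.le, max_eq_right (by linarith)]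

lemma clamp_continuous (β : ℝ) : Continuous (clamp (d := d) β) := by
  unfold clamp; fun_prop

theorem global_sol {N : Network d} {ε : ℝ} (hε : 0 < ε) {V : (Fin d → ℝ) → ℝ} {C : ℝ}
    (hV : IsLyap N ε univ 0 V C) {k : ℝ → (Fin d → ℕ) × (Fin d → ℕ) → ℝ}
    (hkm : ∀ r ∈ N.R, Measurable fun t => k t r) (hk : ∀ t, ∀ r ∈ N.R, ε ≤ k t r ∧ k t r ≤ ε⁻¹)
    {x0 : Fin d → ℝ} (hx0 : ∀ i, 0 < x0 i) :
    ∃ (x F : ℝ → Fin d → ℝ) (β Φ : ℝ), Prim x F ∧ x 0 = x0 ∧ (∀ t, ‖F t‖ ≤ Φ) ∧
      ∀ t, 0 ≤ t → (∀ i, 0 < x t i ∧ x t i < β) ∧ F t = N.field (k t) (x t) := by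
  have hsum : ∀ y : Fin d → ℝ, (∀ i, 0 < y i) → ∀ i, y i ≤ V y + C * Real.exp (C + 1) := by
    intro y hy i
    have h1 := (hV y hy).2.1 (C + 1)
    have h2 := single_le_sum (f := y) (fun i _ => (hy i).le) (mem_univ i)
    rw [add_sub_cancel_left, mul_one] at h1
    linarith
  set β := |V x0 + C * Real.exp (C + 1)| + 1 with hβ
  have hβ0 : 0 ≤ β := by positivity
  have hβ1 := le_abs_self (V x0 + C * Real.exp (C + 1))
  obtain ⟨L, hL, hlip⟩ := field_lip N ε⁻¹ β
  have hk' : ∀ t, ∀ r ∈ N.R, |k t r| ≤ ε⁻¹ := fun t r hr => by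
    rw [abs_of_pos (hε.trans_le (hk t r hr).1)]; exact (hk t r hr).2
  have hmeas : ∀ u : ℝ → Fin d → ℝ, Continuous u →
      AEStronglyMeasurable (fun s => N.field (k s) (clamp β (u s))) volume := by
    intro u hu
    refine Measurable.aestronglyMeasurable ?_
    unfold Network.field
    refine Finset.measurable_fun_sum _ fun r hr => Measurable.smul ((hkm r hr).mul ?_)
      measurable_const
    have := (clamp_continuous β).comp hu
    exact Continuous.measurable (continuous_finsetProd _ fun i _ =>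
      ((continuous_apply i).comp this).pow _)
  have hΦ : ∀ s x, ‖N.field (k s) (clamp β x)‖ ≤ L := fun s x =>
    (hlip _ (hk' s) _ _ (clamp_norm hβ0 x) (clamp_norm hβ0 x)).2
  obtain ⟨x, hxc, hxe⟩ := exists_sol (fun s x => N.field (k s) (clamp β x)) hmeas hL hΦ
    (fun s x y => (hlip _ (hk' s) _ _ (clamp_norm hβ0 x) (clamp_norm hβ0 y)).1.trans
      (mul_le_mul_of_nonneg_left (clamp_lip β x y) hL.le)) x0
  set F : ℝ → Fin d → ℝ := fun s => N.field (k s) (clamp β (x s)) with hF
  have hint : ∀ a b, IntervalIntegrable F volume a b :=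
    intInt_of_bdd (hmeas x hxc) fun s => hΦ s _
  have hP : Prim x F := ⟨hxc, hint, fun s t hs ht => by
    rw [hxe s hs, hxe t ht, add_sub_add_left_eq_sub]
    exact intervalIntegral.integral_interval_sub_left (hint _ _) (hint _ _)⟩
  have h0 : x 0 = x0 := by simpa using hxe 0 le_rfl
  have hU : IsOpen {y : Fin d → ℝ | ∀ i, 0 < y i ∧ y i < β} := by
    rw [Set.ofPred_forall]
    exact isOpen_iInter_of_finite fun i =>
      (isOpen_lt continuous_const (continuous_apply i)).inter
        (isOpen_lt (continuous_apply i) continuous_const)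
  have hstay := stay_open hxc hU fun T hT hin => by
    rcases hT.eq_or_lt with rfl | hT'
    · intro i
      rw [h0]
      exact ⟨hx0 i, by linarith [hsum x0 hx0 i]⟩
    have hadm : ∀ s ∈ Set.Ico 0 T, Adm N ε x F s := fun s hs =>
      ⟨fun i => (hin s hs i).1, k s, hk s, by simp only [hF]; rw [clamp_eq (hin s hs)]⟩
    intro i
    have hxi : Continuous fun t => x t i := (continuous_apply i).comp hxc
    constructor
    · set s0 := max 0 (T - 1 / (2 * L)) with hs0
      have h1 : 0 < 1 / (2 * L) := by positivity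
      have hs0T : s0 < T := max_lt hT' (by linarith)
      have hs00 : 0 ≤ s0 := le_max_left _ _
      have hs01 : T - 1 / (2 * L) ≤ s0 := le_max_right _ _
      obtain ⟨a, ha, hmax⟩ := isCompact_Icc.exists_isMaxOn (⟨s0, le_rfl, hs0T.le⟩ :
        (Set.Icc s0 T).Nonempty) hxi.continuousOn
      have hm : 0 < x a i := (hin s0 ⟨hs00, hs0T⟩ i).1.trans_le (hmax ⟨le_rfl, hs0T.le⟩)
      have h2 := hP.dot_le (-Pi.single i 1) (hs00.trans ha.1) ha.2 (c := L * x a i) fun u hu => by
        have hu' : u ∈ Set.Ico 0 T := ⟨(hs00.trans ha.1).trans hu.1.le, hu.2⟩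
        have hy := hin u hu'
        have hn : ‖x u‖ ≤ β := by
          have := clamp_norm hβ0 (x u); rwa [clamp_eq hy] at this
        have hn' : ‖Function.update (x u) i 0‖ ≤ β := (pi_norm_le_iff_of_nonneg hβ0).2 fun j => by
          rcases eq_or_ne j i with rfl | hji
          · simpa using hβ0
          · rw [Function.update_of_ne hji]; exact (norm_le_pi_norm (x u) j).trans hn
        have a1 := (hlip _ (hk' u) _ _ hn hn').1
        have a2 : ‖x u - Function.update (x u) i 0‖ ≤ x a i :=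
          (pi_norm_le_iff_of_nonneg hm.le).2 fun j => by
            rcases eq_or_ne j i with rfl | hji
            · simp only [Pi.sub_apply, Function.update_self, sub_zero, Real.norm_eq_abs]
              rw [abs_of_pos (hy j).1]
              exact hmax ⟨ha.1.trans hu.1.le, hu.2.le⟩
            · simp [Function.update_of_ne hji, hm.le]
        have a3 := field_quasi N (k := k u) (fun r hr => hε.le.trans (hk u r hr).1)
          (x := Function.update (x u) i 0) (i := i) (fun j => by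
            rcases eq_or_ne j i with rfl | hji
            · simp
            · rw [Function.update_of_ne hji]; exact (hy j).1.le) (by simp)
        have a4 := (norm_le_pi_norm _ i).trans (a1.trans (mul_le_mul_of_nonneg_left a2 hL.le))
        rw [Pi.sub_apply, Real.norm_eq_abs, abs_le] at a4
        have a5 : F u = N.field (k u) (x u) := by simp only [hF]; rw [clamp_eq hy]
        have a6 : ∑ j, (-Pi.single i 1 : Fin d → ℝ) j * F u j = -F u i := by
          simp [Pi.single_apply]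
        rw [a6, a5]
        linarith [a4.1]
      have a6 : ∑ j, (-Pi.single i 1 : Fin d → ℝ) j * (x T j - x a j) = -(x T i - x a i) := by
        simp [Pi.single_apply]
      rw [a6] at h2
      have a7 : L * x a i * (T - a) ≤ L * x a i * (1 / (2 * L)) := by
        gcongr; linarith [ha.1]
      have a8 : L * x a i * (1 / (2 * L)) = x a i / 2 := by field_simp
      linarith
    · have hcl : Set.Ico 0 T ⊆ {t | x t i ≤ β - 1} := fun s hs => by
        have h1 := hP.mono hV le_rfl hs.1 (fun u hu => hadm u ⟨hu.1, hu.2.trans_lt hs.2⟩) (by simp)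
        have h2 := hsum (x s) (hadm s hs).1 i
        rw [h0] at h1
        change x s i ≤ β - 1
        linarith
      have := closure_minimal hcl (isClosed_le hxi continuous_const)
      rw [closure_Ico hT'.ne] at this
      have h3 : x T i ≤ β - 1 := this ⟨hT, le_rfl⟩
      linarith
  exact ⟨x, F, β, L, hP, h0, fun t => hΦ t _, fun t ht =>
    ⟨hstay t ht, by simp only [hF]; rw [clamp_eq (hstay t ht)]⟩⟩

theorem unique_integral {N : Network d} {κ : ℝ} {k : ℝ → (Fin d → ℕ) × (Fin d → ℕ) → ℝ}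
    (hk : ∀ t, 0 ≤ t → ∀ r ∈ N.R, |k t r| ≤ κ) {x0 : Fin d → ℝ} {x y : ℝ → Fin d → ℝ} {T : ℝ}
    (hx : IsIntegralSolution (fun t => N.field (k t)) x0 x T)
    (hy : IsIntegralSolution (fun t => N.field (k t)) x0 y T) : ∀ t ∈ Set.Icc 0 T, y t = x t := by
  obtain ⟨b1, hb1⟩ := isCompact_Icc.exists_bound_of_continuousOn hx.1
  obtain ⟨b2, hb2⟩ := isCompact_Icc.exists_bound_of_continuousOn hy.1
  obtain ⟨L, hL, hlip⟩ := field_lip N κ (max b1 b2)
  exact unique_sol hL.le hy.1 hx.1 hy.2.1 hx.2.1 hy.2.2 hx.2.2 fun s hs =>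
    (hlip _ (hk s hs.1) _ _ ((hb2 s hs).trans (le_max_right _ _))
      ((hb1 s hs).trans (le_max_left _ _))).1

theorem uniform (N : Network d) (hN : N.WeaklyReversible) {c : Fin d → ℝ} (hc : ∀ i, 0 < c i)
    {ε : ℝ} (hε : 0 < ε) : N.UniformlyPermanentOn ε (N.posClass c) := by
  obtain ⟨V, C, hC, hV⟩ := lyapZ N hN hε univ 0 le_rfl
  obtain ⟨lo, hi, hlo, hbox⟩ := exists_box c hc C hC
  refine ⟨Set.Icc lo hi ∩ {x | x - c ∈ N.stoich}, isCompact_Icc.inter_right
    (N.stoich.closed_of_finiteDimensional.preimage (continuous_id.sub continuous_const)),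
    fun x hx => ⟨hx.2, fun i => (hlo i).trans_le (hx.1.1 i)⟩, fun k hkm hk x0 hx0 => ?_⟩
  obtain ⟨x, F, β, Φ, hP, h0, hΦ, hx⟩ := global_sol hε hV (k := fun t => k (max t 0))
    (fun r hr => (hkm r hr).comp (measurable_id.max measurable_const))
    (fun t r hr => hk r hr _ (le_max_right _ _)) hx0.2
  have hF : ∀ t, 0 ≤ t → F t = N.field (k t) (x t) := fun t ht => by
    rw [(hx t ht).2, max_eq_left ht]
  have hadm : ∀ t, 0 ≤ t → Adm N ε x F t := fun t ht =>
    ⟨fun i => ((hx t ht).1 i).1, k t, fun r hr => hk r hr t ht, hF t ht⟩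
  have hsol : ∀ T, 0 ≤ T → IsIntegralSolution (fun t => N.field (k t)) x0 x T := by
    intro T hT
    refine ⟨hP.cont.continuousOn, ?_, fun t ht => ?_⟩
    · exact ((intervalIntegrable_iff_integrableOn_Icc_of_le hT).1 (hP.int 0 T)).congr_fun
        (fun s hs => hF s hs.1) measurableSet_Icc
    · rw [← h0, ← sub_eq_iff_eq_add', hP.eq 0 t le_rfl ht.1]
      refine intervalIntegral.integral_congr fun s hs => ?_
      rw [Set.uIcc_of_le ht.1] at hs
      exact hF s hs.1
  refine ⟨x, hsol, fun t ht => (hadm t ht).1, ?_, fun T y hy t ht => ?_⟩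
  · obtain ⟨T, hT⟩ := hP.absorb hN hε hV hbox hadm (fun t ht i => ((hx t ht).1 i).2.le) hΦ
      (h0 ▸ hx0.1)
    refine ⟨max T 0, fun t ht => ⟨hT t ((le_max_left _ _).trans ht), ?_⟩⟩
    have := N.stoich.add_mem (hP.sub_mem hadm ((le_max_right _ _).trans ht)) (h0 ▸ hx0.1)
    rwa [sub_add_sub_cancel] at this
  · exact unique_integral (κ := ε⁻¹) (fun t ht r hr => by
      rw [abs_of_pos (hε.trans_le (hk r hr t ht).1)]; exact (hk r hr t ht).2)
      (hsol T (ht.1.trans ht.2)) hy t ht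

lemma field_continuous (N : Network d) (k : (Fin d → ℕ) × (Fin d → ℕ) → ℝ) :
    Continuous (N.field k) := by
  unfold Network.field; fun_prop

theorem classical (N : Network d) (hN : N.WeaklyReversible) {c : Fin d → ℝ} (hc : ∀ i, 0 < c i)
    {k : (Fin d → ℕ) × (Fin d → ℕ) → ℝ} (hk : ∀ r ∈ N.R, 0 < k r) :
    PermanentOn (N.field k) (N.posClass c) := by
  obtain ⟨ε, hε, hεk⟩ : ∃ ε : ℝ, 0 < ε ∧ ∀ r ∈ N.R, ε ≤ k r ∧ k r ≤ ε⁻¹ := by
    obtain ⟨μ, h0, -, h1⟩ := exists_mu (N.R.finite_toSet.image fun r => min (k r) (k r)⁻¹)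
    refine ⟨μ, h0, fun r hr => ?_⟩
    have hp : 0 < min (k r) (k r)⁻¹ := lt_min (hk r hr) (inv_pos.2 (hk r hr))
    have := h1 _ ⟨r, hr, rfl⟩ hp.ne'
    rw [abs_of_pos hp] at this
    exact ⟨this.trans (min_le_left _ _),
      (le_inv_comm₀ (hk r hr) h0).2 (this.trans (min_le_right _ _))⟩
  obtain ⟨K, hK, hKP, h⟩ := uniform N hN hc hε
  refine ⟨K, hK, hKP, fun x0 hx0 => ?_⟩
  obtain ⟨x, hsol, hpos, hev, huniq⟩ := h (fun _ => k) (fun _ _ => measurable_const)
    (fun r hr _ _ => hεk r hr) x0 hx0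
  have hfc := field_continuous N k
  refine ⟨x, by simpa using (hsol 0 le_rfl).2.2 0 ⟨le_rfl, le_rfl⟩, fun t ht => ?_, hpos, hev,
    fun T y hy0 hy => huniq T y ?_⟩
  · have hxc : ContinuousOn x (Set.Ici 0) := fun s hs =>
      ((hsol (s + 1) (by linarith [Set.mem_Ici.1 hs])).1 s ⟨hs, by linarith⟩).mono_of_mem_nhdsWithin
        (mem_nhdsWithin.2 ⟨Set.Iio (s + 1), isOpen_Iio, by simp,
          fun u hu => ⟨hu.2, le_of_lt hu.1⟩⟩)
    have hg : Continuous fun s => N.field k (x (max s 0)) :=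
      hfc.comp (hxc.comp_continuous (by fun_prop) fun s => le_max_right s 0)
    have h1 := ((hg.integral_hasStrictDerivAt 0 t).hasDerivAt.const_add x0).hasDerivWithinAt
      (s := Set.Ici 0)
    rw [max_eq_left ht] at h1
    have key : ∀ s ∈ Set.Ici (0 : ℝ), x s = x0 + ∫ u in (0 : ℝ)..s, N.field k (x (max u 0)) := by
      intro s hs
      rw [(hsol s hs).2.2 s ⟨hs, le_rfl⟩]
      congr 1
      refine intervalIntegral.integral_congr fun u hu => ?_
      rw [Set.uIcc_of_le hs] at hu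
      simp only [max_eq_left hu.1]
    exact h1.congr key (key t ht)
  · have hyc : ContinuousOn y (Set.Icc 0 T) := fun s hs => (hy s hs).continuousWithinAt
    have hI : ContinuousOn (fun s => N.field k (y s)) (Set.Icc 0 T) := hfc.comp_continuousOn hyc
    refine ⟨hyc, hI.integrableOn_Icc, fun t ht => ?_⟩
    have hsub : Set.Icc 0 t ⊆ Set.Icc 0 T := Set.Icc_subset_Icc_right ht.2
    rw [intervalIntegral.integral_eq_sub_of_hasDeriv_right_of_le ht.1 (hyc.mono hsub)
      (fun s hs => ((hy s ⟨hs.1.le, hs.2.le.trans ht.2⟩).hasDerivAt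
        (Icc_mem_nhds hs.1 (hs.2.trans_le ht.2))).hasDerivWithinAt)
      ((hI.mono hsub).intervalIntegrable_of_Icc ht.1), hy0]
    simp

end Vale.Agent.P072
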