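import Vale.Agent.P072.Path

/-! Near-maximising paths are close to `log x`. -/

namespace Vale.Agent.P072

open Finset

namespace Data

variable {ι : Type} [Fintype ι] [DecidableEq ι] (D : Data ι)

noncomputable def cost (e : ℕ → Bool) (k : ℕ) (v : ℝ) : ℝ :=
  if e k then 2 * Real.exp (v - D.Δ e k) else Real.exp v

noncomputable def value (x : ι → ℝ) (ρ : ι → ℕ) (w : ι → ℝ) (e : ℕ → Bool) : ℝ :=
  ∑ i, (x i * w i - D.cost e (ρ i) (w i))

/-- A full valid path. -/
def Full (ρ : ι → ℕ) (w : ι → ℝ) (e : ℕ → Bool) : Prop :=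
  Function.Injective ρ ∧ (∀ i, ρ i < D.n) ∧ D.Val D.n ρ w e

/-- A near-maximiser. -/
def Good (x : ι → ℝ) (τ : ℝ) (ρ : ι → ℕ) (w : ι → ℝ) (e : ℕ → Bool) : Prop :=
  D.Full ρ w e ∧ ∀ ρ' w' e', D.Full ρ' w' e' → D.value x ρ' w' e' ≤ D.value x ρ w e + τ

lemma cost_pos (e : ℕ → Bool) (k : ℕ) (v : ℝ) : 0 < D.cost e k v := by
  unfold cost; split_ifs <;> positivity

lemma cost_le (e : ℕ → Bool) (k : ℕ) (v : ℝ) : D.cost e k v ≤ Real.exp v := by
  unfold cost
  split_ifs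
  · have h4 := D.four_le_Δ e k
    have h1 : D.Δ e k + 1 ≤ Real.exp (D.Δ e k) := Real.add_one_le_exp _
    rw [Real.exp_sub, mul_div_assoc', div_le_iff₀ (Real.exp_pos _)]
    have := Real.exp_pos v
    nlinarith
  · exact le_rfl

lemma le_cost (e : ℕ → Bool) {k : ℕ} (hk : k < D.n) (v : ℝ) :
    Real.exp (v - D.top) ≤ D.cost e k v := by
  have h1 := D.Δ_le_top e hk
  have h2 := D.top_pos
  unfold cost
  split_ifs
  · have : Real.exp (v - D.top) ≤ Real.exp (v - D.Δ e k) := Real.exp_le_exp.2 (by linarith)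
    have := Real.exp_pos (v - D.Δ e k)
    linarith
  · exact Real.exp_le_exp.2 (by linarith)

lemma cost_congr {e e' : ℕ → Bool} {k : ℕ} (h : ∀ t ≤ k, e t = e' t) (v : ℝ) :
    D.cost e k v = D.cost e' k v := by
  unfold cost
  rw [h k le_rfl, D.Δ_congr fun t ht => h t ht.le]

lemma Full.anti {ρ : ι → ℕ} {w : ι → ℝ} {e : ℕ → Bool} (h : D.Full ρ w e) {i j : ι}
    (hij : ρ j ≤ ρ i) : w i ≤ w j := by
  rcases hij.eq_or_lt with h' | h'
  · rw [h.1 h']
  · exact (h.2.2 i (h.2.1 i)).1 j h'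

/-- A tie forces a critical position. -/
lemma Full.crit_of_tie {ρ : ι → ℕ} {w : ι → ℝ} {e : ℕ → Bool} (h : D.Full ρ w e) {i j : ι}
    (hij : ρ j < ρ i) (hw : w i = w j) : e (ρ i) = true := by
  by_contra hc
  have := (h.2.2 i (h.2.1 i)).2.2 (by simpa using hc) _ (D.mem_Pt w (h.2.1 i) hij)
  rw [hw, sub_self, abs_zero] at this
  linarith [D.four_le_Δ e (ρ i)]

lemma Full.swap {ρ : ι → ℕ} {w : ι → ℝ} {e : ℕ → Bool} (h : D.Full ρ w e) {a b : ι}
    (hab : ρ a ≤ ρ b) (hw : w a = w b) : D.Full (ρ ∘ Equiv.swap a b) w e := by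
  have hws : ∀ c, w (Equiv.swap a b c) = w c := fun c => by
    rcases eq_or_ne c a with rfl | hca
    · simp [hw]
    · rcases eq_or_ne c b with rfl | hcb
      · simp [hw]
      · rw [Equiv.swap_apply_of_ne_of_ne hca hcb]
  refine ⟨h.1.comp (Equiv.injective _), fun i => h.2.1 _, fun i hi => ⟨fun j hj => ?_, ?_⟩⟩
  · rw [← hws i, ← hws j]
    exact h.anti D hj.le
  · simp only [Function.comp] at hi ⊢
    set c := Equiv.swap a b i with hc
    by_cases hk : ρ a < ρ c ∧ ρ c ≤ ρ b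
    · have hca : w c = w a := le_antisymm (h.anti D hk.1.le) (hw ▸ h.anti D hk.2)
      have hcr := h.crit_of_tie D hk.1 hca
      refine ⟨fun _ => ?_, fun h' => by rw [hcr] at h'; exact absurd h' (by simp)⟩
      have : w i = w b := by rw [← hws i, ← hc, hca, hw]
      rw [this]
      refine D.mem_Pt w hi ?_
      simp only [Function.comp, Equiv.swap_apply_right]
      exact hk.1
    · rw [← hws i, ← hc]
      refine D.Ok_congr (fun j => ?_) (fun _ _ => rfl) (fun _ _ => rfl) (h.2.2 c hi).2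
      simp only [Function.comp]
      rcases eq_or_ne j a with rfl | hja
      · rw [Equiv.swap_apply_left]; omega
      · rcases eq_or_ne j b with rfl | hjb
        · rw [Equiv.swap_apply_right]; omega
        · rw [Equiv.swap_apply_of_ne_of_ne hja hjb]

lemma value_swap (x : ι → ℝ) (ρ : ι → ℕ) {w : ι → ℝ} (e : ℕ → Bool) {a b : ι}
    (hw : w a = w b) : D.value x (ρ ∘ Equiv.swap a b) w e = D.value x ρ w e := by
  have hws : ∀ c, w (Equiv.swap a b c) = w c := fun c => by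
    rcases eq_or_ne c a with rfl | hca
    · simp [hw]
    · rcases eq_or_ne c b with rfl | hcb
      · simp [hw]
      · rw [Equiv.swap_apply_of_ne_of_ne hca hcb]
  unfold value
  rw [sum_sub_distrib, sum_sub_distrib]
  congr 1
  rw [← Equiv.sum_comp (Equiv.swap a b) (fun i => D.cost e (ρ i) (w i))]
  exact sum_congr rfl fun i _ => by simp only [Function.comp, hws]

lemma Good.swap {x : ι → ℝ} {τ : ℝ} {ρ : ι → ℕ} {w : ι → ℝ} {e : ℕ → Bool}
    (h : D.Good x τ ρ w e) {a b : ι} (hab : ρ a ≤ ρ b) (hw : w a = w b) :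
    D.Good x τ (ρ ∘ Equiv.swap a b) w e :=
  ⟨h.1.swap D hab hw, fun ρ' w' e' h' => by rw [D.value_swap x ρ e hw]; exact h.2 _ _ _ h'⟩

/-- The comparison inequality. -/
lemma Good.cmp {x : ι → ℝ} (hx : ∀ i, 0 < x i) {τ : ℝ} {ρ : ι → ℕ} {w : ι → ℝ} {e : ℕ → Bool}
    (h : D.Good x τ ρ w e) {k : ℕ} (hk : k ≤ D.n) {w' : ι → ℝ} {e' : ℕ → Bool}
    (hV : D.Val k ρ w' e') {κ : ℝ} (hκ : 0 ≤ κ)
    (hw : ∀ i j, k ≤ ρ i → ρ j < k → w i - κ ≤ w' j) {X : ℝ} (hX : 0 ≤ X)
    (hlow : ∀ i, k ≤ ρ i → x i ≤ X ∧ Real.exp (w i) ≤ X) :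
    ∑ i, (if ρ i < k then (x i * (w' i - w i) - D.cost e' (ρ i) (w' i) + D.cost e (ρ i) (w i))
      else 0) ≤ τ + D.n * (κ + D.n * D.top + 1) * X := by
  obtain ⟨w2, e2, hV2, h1, h2, h3, h4⟩ := D.extend h.1.1 w κ hκ k
    (fun i j _ hij => h.1.anti D hij.le) hV hw (D.n - k) (by omega)
  rw [show k + (D.n - k) = D.n by omega] at hV2 h3 h4
  have hle := h.2 ρ w2 e2 ⟨h.1.1, h.1.2.1, hV2⟩
  have htop := D.top_pos
  have hA : 0 ≤ (κ + D.n * D.top + 1) * X := by positivity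
  have key : ∀ i, (if ρ i < k then
      (x i * (w' i - w i) - D.cost e' (ρ i) (w' i) + D.cost e (ρ i) (w i)) else 0) ≤
      ((x i * w2 i - D.cost e2 (ρ i) (w2 i)) - (x i * w i - D.cost e (ρ i) (w i))) +
        (κ + D.n * D.top + 1) * X := by
    intro i
    split_ifs with hi
    · rw [h1 i hi, D.cost_congr (e := e2) (e' := e') (fun t ht => h2 t (by omega))]
      linarith
    · push Not at hi
      have a1 := h3 i hi (h.1.2.1 i)
      have a2 := h4 i i hi (h.1.2.1 i) le_rfl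
      have a3 := D.cost_le e2 (ρ i) (w2 i)
      have a4 := D.cost_pos e (ρ i) (w i)
      have a5 : Real.exp (w2 i) ≤ Real.exp (w i) := Real.exp_le_exp.2 a1
      obtain ⟨a6, a7⟩ := hlow i hi
      have a8 : ((D.n - k : ℕ) : ℝ) ≤ D.n := by exact_mod_cast Nat.sub_le _ _
      have a9 : w i - w2 i ≤ κ + D.n * D.top := by nlinarith
      have a10 : x i * (w i - w2 i) ≤ X * (κ + D.n * D.top) :=
        (mul_le_mul_of_nonneg_left a9 (hx i).le).trans
          (mul_le_mul_of_nonneg_right a6 (by positivity))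
      nlinarith
  have hsum := sum_le_sum fun i (_ : i ∈ univ) => key i
  rw [sum_add_distrib, sum_sub_distrib, sum_const, card_univ, nsmul_eq_mul] at hsum
  have hc : (Fintype.card ι : ℝ) ≤ D.n := by exact_mod_cast D.card_le
  unfold value at hle
  have : (Fintype.card ι : ℝ) * ((κ + D.n * D.top + 1) * X) ≤
      D.n * ((κ + D.n * D.top + 1) * X) := mul_le_mul_of_nonneg_right hc hA
  linarith

/-- The first element of a level set. -/
def First (ρ : ι → ℕ) (w : ι → ℝ) (i : ι) : Prop := ∀ j, w j = w i → ρ i ≤ ρ j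

/-- The last element of a level set. -/
def Last (ρ : ι → ℕ) (w : ι → ℝ) (i : ι) : Prop := ∀ j, w j = w i → ρ j ≤ ρ i

omit [DecidableEq ι] in
lemma exists_first (ρ : ι → ℕ) (w : ι → ℝ) (i : ι) : ∃ a, w a = w i ∧ First ρ w a := by
  obtain ⟨a, ha, h⟩ := exists_min_image (univ.filter fun j => w j = w i) ρ ⟨i, by simp⟩
  have ha' : w a = w i := by simpa using ha
  exact ⟨a, ha', fun j hj => h j (by simp [hj, ha'])⟩

omit [DecidableEq ι] in
lemma exists_last (ρ : ι → ℕ) (w : ι → ℝ) (i : ι) : ∃ a, w a = w i ∧ Last ρ w a := by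
  obtain ⟨a, ha, h⟩ := exists_max_image (univ.filter fun j => w j = w i) ρ ⟨i, by simp⟩
  have ha' : w a = w i := by simpa using ha
  exact ⟨a, ha', fun j hj => h j (by simp [hj, ha'])⟩

lemma Full.lt_of_lt {ρ : ι → ℕ} {w : ι → ℝ} {e : ℕ → Bool} (h : D.Full ρ w e) {i j : ι}
    (hw : w i < w j) : ρ j < ρ i := by
  by_contra hc
  exact absurd (h.anti D (not_lt.1 hc)) (not_le.2 hw)

/-- Distinct levels are separated. -/
lemma Full.sep {ρ : ι → ℕ} {w : ι → ℝ} {e : ℕ → Bool} (h : D.Full ρ w e) {i j : ι}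
    (hw : w i < w j) :
    w i + (if e (ρ i) then 4 * D.Δ e (ρ i) else D.Δ e (ρ i)) ≤ w j := by
  have hlt := h.lt_of_lt D hw
  have hm := D.mem_Pt w (h.2.1 i) hlt
  have hok := (h.2.2 i (h.2.1 i)).2
  cases hek : e (ρ i) with
  | true =>
    simp only [if_true]
    rcases D.Pt_sep h.1 (h.2.1 i) (h.2.2.mono D (h.2.1 i).le) (hok.1 hek) hm with h' | h'
    · exact absurd h' hw.ne
    · rw [abs_of_neg (by linarith)] at h'; linarith
  | false =>
    simp only [Bool.false_eq_true, if_false]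
    have := hok.2 hek _ hm
    rw [abs_of_neg (by linarith)] at this; linarith

end Data

end Vale.Agent.P072
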