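import Vale.Agent.P072.Scale

/-! Valid paths, the gap lemma, extension, swap and comparison. -/

namespace Vale.Agent.P072

open Finset

namespace Data

variable {ι : Type} [Fintype ι] [DecidableEq ι] (D : Data ι)

/-- Critical values at position `k`. -/
def Pt (ρ : ι → ℕ) (w : ι → ℝ) (k : ℕ) : Set ℝ :=
  {p | ∃ l ∈ D.L k, (∀ i, k ≤ ρ i → l i = 0) ∧ p = l ⬝ᵥ w}

/-- Allowed values at position `k`. -/
def Ok (ρ : ι → ℕ) (w : ι → ℝ) (e : ℕ → Bool) (k : ℕ) (v : ℝ) : Prop :=
  (e k = true → v ∈ D.Pt ρ w k) ∧ (e k = false → ∀ p ∈ D.Pt ρ w k, D.Δ e k ≤ |v - p|)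

/-- Validity of the first `k` positions. -/
def Val (k : ℕ) (ρ : ι → ℕ) (w : ι → ℝ) (e : ℕ → Bool) : Prop :=
  ∀ i, ρ i < k → (∀ j, ρ j < ρ i → w i ≤ w j) ∧ D.Ok ρ w e (ρ i) (w i)

lemma dot_congr {l w w' : ι → ℝ} (h : ∀ i, l i ≠ 0 → w i = w' i) : l ⬝ᵥ w = l ⬝ᵥ w' := by
  unfold dotProduct
  refine sum_congr rfl fun i _ => ?_
  by_cases hi : l i = 0
  · simp [hi]
  · rw [h i hi]

lemma Pt_congr {ρ ρ' : ι → ℕ} {w w' : ι → ℝ} {k : ℕ} (h : ∀ i, ρ i < k ↔ ρ' i < k)
    (hw : ∀ i, ρ i < k → w i = w' i) : D.Pt ρ w k = D.Pt ρ' w' k := by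
  have key : ∀ l : ι → ℝ, (∀ i, k ≤ ρ i → l i = 0) ↔ (∀ i, k ≤ ρ' i → l i = 0) := by
    intro l
    refine forall_congr' fun i => ?_
    rw [← not_lt, ← not_lt, h i]
  ext p
  constructor
  · rintro ⟨l, hl, h0, rfl⟩
    exact ⟨l, hl, (key l).1 h0, dot_congr fun i hi => hw i (by
      by_contra hc; exact hi (h0 i (not_lt.1 hc)))⟩
  · rintro ⟨l, hl, h0, rfl⟩
    exact ⟨l, hl, (key l).2 h0, (dot_congr fun i hi => hw i (by
      by_contra hc; exact hi ((key l).2 h0 i (not_lt.1 hc)))).symm⟩

lemma Ok_congr {ρ ρ' : ι → ℕ} {w w' : ι → ℝ} {e e' : ℕ → Bool} {k : ℕ} {v : ℝ}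
    (h : ∀ i, ρ i < k ↔ ρ' i < k)
    (hw : ∀ i, ρ i < k → w i = w' i) (he : ∀ t ≤ k, e t = e' t) (hv : D.Ok ρ w e k v) :
    D.Ok ρ' w' e' k v := by
  unfold Ok at hv ⊢
  rw [← D.Pt_congr h hw, ← he k le_rfl, ← D.Δ_congr fun t ht => he t ht.le]
  exact hv

lemma Val.mono {k k' : ℕ} {ρ : ι → ℕ} {w : ι → ℝ} {e : ℕ → Bool} (h : D.Val k ρ w e)
    (hk : k' ≤ k) : D.Val k' ρ w e := fun i hi => h i (by omega)

lemma Val_congr {k : ℕ} {ρ : ι → ℕ} {w w' : ι → ℝ} {e e' : ℕ → Bool} (h : D.Val k ρ w e)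
    (hw : ∀ i, ρ i < k → w i = w' i) (he : ∀ t < k, e t = e' t) : D.Val k ρ w' e' := by
  intro i hi
  refine ⟨fun j hj => ?_, ?_⟩
  · rw [← hw i hi, ← hw j (by omega)]; exact (h i hi).1 j hj
  · rw [← hw i hi]
    exact D.Ok_congr (fun _ => Iff.rfl) (fun j hj => hw j (by omega))
      (fun t ht => he t (by omega)) (h i hi).2

lemma mem_Pt {ρ : ι → ℕ} (w : ι → ℝ) {k : ℕ} (hk : k < D.n) {j : ι} (hj : ρ j < k) :
    w j ∈ D.Pt ρ w k := by
  refine ⟨Pi.single j 1, D.unit k hk j, fun i hi => ?_, by simp⟩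
  have : i ≠ j := by rintro rfl; omega
  simp [this]

/-- The gap lemma. -/
lemma gap {ρ : ι → ℕ} (hρ : Function.Injective ρ) {w : ι → ℝ} {e : ℕ → Bool} :
    ∀ k ≤ D.n, D.Val k ρ w e → ∀ g ∈ D.G k, (∀ i, k ≤ ρ i → g i = 0) →
      g ⬝ᵥ w = 0 ∨ D.μ ^ k * D.hi e k ≤ |g ⬝ᵥ w| := by
  intro k
  induction k with
  | zero =>
    intro _ _ g _ h0
    left
    have : g = 0 := funext fun i => h0 i (Nat.zero_le _)
    simp [this]
  | succ k ih =>
    intro hk hV g hg h0
    have hkn : k < D.n := hk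
    have ih' := ih hkn.le (hV.mono D (Nat.le_succ k))
    have hμk : 0 < D.μ ^ k := pow_pos D.μ_pos _
    have hμ1 : D.μ ^ (k + 1) ≤ D.μ ^ k := pow_le_pow_of_le_one D.μ_pos.le D.μ_le (Nat.le_succ k)
    by_cases hex : ∃ i, ρ i = k ∧ g i ≠ 0
    · obtain ⟨i, hi, hgi⟩ := hex
      set l : ι → ℝ := Pi.single i 1 - (g i)⁻¹ • g with hl
      have hlL : l ∈ D.L k := D.solve k hkn g hg i hgi
      have hl0 : ∀ j, k ≤ ρ j → l j = 0 := by
        intro j hj
        by_cases hji : j = i
        · subst hji; simp [hl, hgi]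
        · have : k + 1 ≤ ρ j := by
            have : ρ j ≠ k := fun h => hji (hρ (h.trans hi.symm))
            omega
          simp [hl, hji, h0 j this]
      have hdot : g ⬝ᵥ w = g i * (w i - l ⬝ᵥ w) := by
        simp only [hl, sub_dotProduct, smul_dotProduct, single_dotProduct, smul_eq_mul]
        field_simp
        ring
      have hμ := D.μ_min (k + 1) hk g hg i hgi
      have hok := (hV i (by omega)).2
      rw [hi] at hok
      rw [D.hi_succ e hkn]
      cases hek : e k with
      | true =>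
        obtain ⟨l', hl', hl0', hw⟩ := hok.1 hek
        have := ih' (l' - l) (D.diff k hkn l' hl' l hlL) (fun j hj => by
          simp [hl0 j hj, hl0' j hj])
        rw [sub_dotProduct, ← hw] at this
        rcases this with h | h
        · left; rw [hdot, h, mul_zero]
        · right
          rw [hdot, abs_mul]
          simp only [if_true]
          have := D.hi_pos e k
          calc D.μ ^ (k + 1) * D.hi e k = D.μ * (D.μ ^ k * D.hi e k) := by ring
            _ ≤ _ := mul_le_mul hμ h (by positivity) (abs_nonneg _)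
      | false =>
        right
        have h := hok.2 hek _ ⟨l, hlL, hl0, rfl⟩
        rw [hdot, abs_mul]
        simp only [Bool.false_eq_true, if_false]
        have h4 := D.four_le_Δ e k
        have hμ2 : D.μ ^ (k + 1) ≤ D.μ := by
          rw [pow_succ]
          have : D.μ ^ k ≤ 1 := pow_le_one₀ D.μ_pos.le D.μ_le
          have := D.μ_pos
          nlinarith
        exact mul_le_mul (hμ2.trans hμ) h (by linarith) (abs_nonneg _)
    · push Not at hex
      have := ih' g (D.G_anti k hkn hg) (fun j hj => by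
        rcases hj.eq_or_lt with h | h
        · exact hex j h.symm
        · exact h0 j h)
      rcases this with h | h
      · exact Or.inl h
      · right
        refine le_trans ?_ h
        exact mul_le_mul hμ1 (D.hi_succ_le e hkn) (D.hi_pos _ _).le hμk.le

/-- Critical values are separated. -/
lemma Pt_sep {ρ : ι → ℕ} (hρ : Function.Injective ρ) {w : ι → ℝ} {e : ℕ → Bool} {k : ℕ}
    (hk : k < D.n) (hV : D.Val k ρ w e) {p p' : ℝ} (hp : p ∈ D.Pt ρ w k)
    (hp' : p' ∈ D.Pt ρ w k) : p = p' ∨ 4 * D.Δ e k ≤ |p - p'| := by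
  obtain ⟨l, hl, h0, rfl⟩ := hp
  obtain ⟨l', hl', h0', rfl⟩ := hp'
  have := D.gap hρ k hk.le hV (l - l') (D.diff k hk l hl l' hl') (fun j hj => by
    simp [h0 j hj, h0' j hj])
  rw [sub_dotProduct] at this
  rcases this with h | h
  · left; linarith
  · right; exact (D.four_Δ_le_gap e hk).trans h

/-- Every real has an allowed value just below it. -/
lemma exists_ok {ρ : ι → ℕ} (hρ : Function.Injective ρ) {w : ι → ℝ} {e : ℕ → Bool} {k : ℕ}
    (hk : k < D.n) (hV : D.Val k ρ w e) (s : ℝ) :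
    ∃ v b, s - D.top ≤ v ∧ v ≤ s ∧ D.Ok ρ w (Function.update e k b) k v := by
  have hΔ := D.Δ_le_top e hk
  have h4 := D.four_le_Δ e k
  by_cases h : ∀ p ∈ D.Pt ρ w k, D.Δ e k ≤ |s - p|
  · refine ⟨s, false, by linarith [D.top_pos], le_rfl, by simp, fun _ => ?_⟩
    rw [D.Δ_update e le_rfl]; exact h
  · push Not at h
    obtain ⟨p, hp, hlt⟩ := h
    rw [abs_lt] at hlt
    by_cases hps : p ≤ s
    · exact ⟨p, true, by linarith, hps, fun _ => hp, by simp⟩
    · refine ⟨p - D.Δ e k, false, by linarith, by linarith, by simp, fun _ p' hp' => ?_⟩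
      rw [D.Δ_update e le_rfl]
      rcases D.Pt_sep hρ hk hV hp hp' with h | h
      · rw [← h, le_abs]; right; linarith
      · rw [le_abs] at h ⊢
        rcases h with h | h
        · left; linarith
        · right; linarith

/-- Extension of a valid initial segment to a full path. -/
lemma extend {ρ : ι → ℕ} (hρ : Function.Injective ρ) (t : ι → ℝ) (κ : ℝ) (hκ : 0 ≤ κ) (k : ℕ)
    (ht : ∀ i j, k ≤ ρ j → ρ j < ρ i → t i ≤ t j) {w : ι → ℝ} {e : ℕ → Bool}
    (hV : D.Val k ρ w e) (hw : ∀ i j, k ≤ ρ i → ρ j < k → t i - κ ≤ w j) :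
    ∀ m, k + m ≤ D.n → ∃ w' e', D.Val (k + m) ρ w' e' ∧ (∀ i, ρ i < k → w' i = w i) ∧
      (∀ s < k, e' s = e s) ∧ (∀ i, k ≤ ρ i → ρ i < k + m → w' i ≤ t i) ∧
      (∀ i j, k ≤ ρ i → ρ j < k + m → ρ j ≤ ρ i → t i - κ - m * D.top ≤ w' j) := by
  intro m
  have htop := D.top_pos
  induction m with
  | zero =>
    intro _
    refine ⟨w, e, hV, fun _ _ => rfl, fun _ _ => rfl, fun i h1 h2 => by omega,
      fun i j h1 h2 _ => ?_⟩
    simpa using hw i j h1 h2
  | succ m ih =>
    intro hm
    obtain ⟨w', e', hV', h1, h2, h3, h4⟩ := ih (by omega)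
    by_cases hex : ∃ i0, ρ i0 = k + m
    · obtain ⟨i0, hi0⟩ := hex
      -- the value to aim at
      obtain ⟨s, hs1, hs2, hs3⟩ : ∃ s, s ≤ t i0 ∧ (∀ j, ρ j < k + m → s ≤ w' j) ∧
          t i0 - κ - m * D.top ≤ s := by
        refine ⟨t i0 - κ - m * D.top, ?_, fun j hj => h4 i0 j (by omega) hj (by omega), le_rfl⟩
        have : 0 ≤ (m : ℝ) * D.top := by positivity
        linarith
      obtain ⟨v, b, hv1, hv2, hv3⟩ := D.exists_ok hρ (show k + m < D.n by omega) hV' s
      have hne : ∀ j, ρ j < k + m → j ≠ i0 := fun j hj h => by rw [h] at hj; omega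
      refine ⟨Function.update w' i0 v, Function.update e' (k + m) b, ?_, ?_, ?_, ?_, ?_⟩
      · have hV2 : D.Val (k + m) ρ (Function.update w' i0 v) (Function.update e' (k + m) b) :=
          D.Val_congr hV' (fun j hj => (Function.update_of_ne (hne j hj) _ _).symm)
            (fun s hs => (Function.update_of_ne (by omega) _ _).symm)
        intro i hi
        by_cases hii : i = i0
        · subst hii
          refine ⟨fun j hj => ?_, ?_⟩
          · rw [Function.update_self, Function.update_of_ne (hne j (by omega))]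
            exact hv2.trans (hs2 j (by omega))
          · rw [Function.update_self, hi0]
            exact D.Ok_congr (fun _ => Iff.rfl)
              (fun j hj => (Function.update_of_ne (hne j hj) _ _).symm) (fun _ _ => rfl) hv3
        · have : ρ i ≠ k + m := fun h => hii (hρ (h.trans hi0.symm))
          exact hV2 i (by omega)
      · intro i hi
        rw [Function.update_of_ne (hne i (by omega)), h1 i hi]
      · intro s hs
        rw [Function.update_of_ne (by omega), h2 s hs]
      · intro i hi1 hi2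
        by_cases hii : i = i0
        · subst hii; rw [Function.update_self]; linarith
        · have : ρ i ≠ k + m := fun h => hii (hρ (h.trans hi0.symm))
          rw [Function.update_of_ne hii]
          exact h3 i hi1 (by omega)
      · intro i j hi hj hji
        push_cast
        by_cases hjj : j = i0
        · subst hjj
          rw [Function.update_self]
          have : t i ≤ t j := by
            rcases hji.eq_or_lt with h | h
            · rw [hρ h]
            · exact ht i j (by omega) h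
          linarith
        · have : ρ j ≠ k + m := fun h => hjj (hρ (h.trans hi0.symm))
          rw [Function.update_of_ne hjj]
          have := h4 i j hi (by omega) hji
          linarith
    · push Not at hex
      refine ⟨w', e', fun i hi => hV' i (by have := hex i; omega), h1, h2,
        fun i hi1 hi2 => h3 i hi1 (by have := hex i; omega), fun i j hi hj hji => ?_⟩
      have := h4 i j hi (by have := hex j; omega) hji
      push_cast
      linarith

end Data

end Vale.Agent.P072
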