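import Mathlib

/-! Scales for the multiscale Lyapunov function. -/

namespace Vale.Agent.P072

open Finset

/-- Closure data and constants. -/
structure Data (ι : Type) [Fintype ι] [DecidableEq ι] where
  n : ℕ
  G : ℕ → Set (ι → ℝ)
  L : ℕ → Set (ι → ℝ)
  μ : ℝ
  M : ℝ
  B : ℝ
  card_le : Fintype.card ι ≤ n
  G_anti : ∀ k < n, G (k + 1) ⊆ G k
  solve : ∀ k < n, ∀ g ∈ G (k + 1), ∀ i, g i ≠ 0 → (Pi.single i 1 - (g i)⁻¹ • g) ∈ L k
  diff : ∀ k < n, ∀ l ∈ L k, ∀ l' ∈ L k, l - l' ∈ G k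
  unit : ∀ k < n, ∀ j, Pi.single j 1 ∈ L k
  μ_pos : 0 < μ
  μ_le : μ ≤ 1
  μ_min : ∀ k ≤ n, ∀ g ∈ G k, ∀ i, g i ≠ 0 → μ ≤ |g i|
  M_big : 4 ≤ μ ^ n * M
  B_one : 1 ≤ B
  B_big : 2 * ((n : ℝ) + 1) * ((n + 2) * (B * M ^ (2 ^ n) + 1) + 6) < Real.exp B

namespace Data

variable {ι : Type} [Fintype ι] [DecidableEq ι] (D : Data ι)

noncomputable def r (k : ℕ) : ℝ := D.M ^ (2 ^ (D.n - k))

noncomputable def lo (e : ℕ → Bool) (k : ℕ) : ℝ :=
  D.B * ∏ t ∈ range k, if e t then D.r (t + 1) else 1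

noncomputable def Δ (e : ℕ → Bool) (k : ℕ) : ℝ := D.lo e k * D.r (k + 1)

noncomputable def hi (e : ℕ → Bool) (k : ℕ) : ℝ := D.lo e k * D.r k

noncomputable def top : ℝ := D.B * D.M ^ (2 ^ D.n)

lemma four_le_M : 4 ≤ D.M := by
  have h1 : D.μ ^ D.n ≤ 1 := pow_le_one₀ D.μ_pos.le D.μ_le
  have h2 : 0 < D.μ ^ D.n := pow_pos D.μ_pos _
  have h3 := D.M_big
  by_contra h
  push Not at h
  nlinarith

lemma M_le_r (k : ℕ) : D.M ≤ D.r k := by
  have h := D.four_le_M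
  unfold r
  exact le_self_pow₀ (by linarith) (by positivity)

lemma one_le_r (k : ℕ) : 1 ≤ D.r k := by
  have := D.four_le_M
  have := D.M_le_r k
  linarith

lemma r_succ {k : ℕ} (hk : k < D.n) : D.r k = D.r (k + 1) * D.r (k + 1) := by
  unfold r
  rw [← pow_add, ← two_mul, ← pow_succ']
  congr 2
  omega

lemma r_n : D.r D.n = D.M := by simp [r]

lemma lo_zero (e : ℕ → Bool) : D.lo e 0 = D.B := by simp [lo]

lemma lo_succ (e : ℕ → Bool) (k : ℕ) :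
    D.lo e (k + 1) = if e k then D.Δ e k else D.lo e k := by
  unfold Δ lo
  rw [prod_range_succ]
  split_ifs <;> ring

lemma B_le_lo (e : ℕ → Bool) (k : ℕ) : D.B ≤ D.lo e k := by
  induction k with
  | zero => rw [lo_zero]
  | succ k ih =>
    rw [lo_succ]
    have := D.one_le_r (k + 1)
    have := D.B_one
    split_ifs
    · unfold Δ; nlinarith
    · exact ih

lemma lo_pos (e : ℕ → Bool) (k : ℕ) : 0 < D.lo e k := by
  have := D.B_le_lo e k
  have := D.B_one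
  linarith

lemma M_lo_le_Δ (e : ℕ → Bool) (k : ℕ) : D.M * D.lo e k ≤ D.Δ e k := by
  have := D.M_le_r (k + 1)
  have := D.lo_pos e k
  unfold Δ; nlinarith

lemma four_lo_le_Δ (e : ℕ → Bool) (k : ℕ) : 4 * D.lo e k ≤ D.Δ e k := by
  have := D.M_lo_le_Δ e k
  have := D.lo_pos e k
  have := D.four_le_M
  nlinarith

lemma four_B_le_Δ (e : ℕ → Bool) (k : ℕ) : 4 * D.B ≤ D.Δ e k := by
  have := D.four_lo_le_Δ e k
  have := D.B_le_lo e k
  linarith

lemma four_le_Δ (e : ℕ → Bool) (k : ℕ) : 4 ≤ D.Δ e k := by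
  have := D.four_B_le_Δ e k
  have := D.B_one
  linarith

lemma lo_mono (e : ℕ → Bool) : Monotone (D.lo e) := by
  refine monotone_nat_of_le_succ fun k => ?_
  rw [lo_succ]
  have := D.four_lo_le_Δ e k
  have := D.lo_pos e k
  split_ifs
  · linarith
  · exact le_rfl

lemma hi_succ (e : ℕ → Bool) {k : ℕ} (hk : k < D.n) :
    D.hi e (k + 1) = if e k then D.hi e k else D.Δ e k := by
  unfold hi
  rw [lo_succ, D.r_succ hk]
  split_ifs
  · unfold Δ; ring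
  · rfl

lemma hi_eq (e : ℕ → Bool) {k : ℕ} (hk : k < D.n) : D.hi e k = D.Δ e k * D.r (k + 1) := by
  unfold hi Δ
  rw [D.r_succ hk]; ring

lemma M_Δ_le_hi (e : ℕ → Bool) {k : ℕ} (hk : k < D.n) : D.M * D.Δ e k ≤ D.hi e k := by
  rw [D.hi_eq e hk]
  have := D.M_le_r (k + 1)
  have := D.four_le_Δ e k
  nlinarith

lemma Δ_le_hi (e : ℕ → Bool) {k : ℕ} (hk : k < D.n) : D.Δ e k ≤ D.hi e k := by
  have := D.M_Δ_le_hi e hk
  have := D.four_le_M
  have := D.four_le_Δ e k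
  nlinarith

lemma hi_succ_le (e : ℕ → Bool) {k : ℕ} (hk : k < D.n) : D.hi e (k + 1) ≤ D.hi e k := by
  rw [D.hi_succ e hk]
  split_ifs
  · exact le_rfl
  · exact D.Δ_le_hi e hk

lemma hi_le_top (e : ℕ → Bool) {k : ℕ} (hk : k ≤ D.n) : D.hi e k ≤ D.top := by
  induction k with
  | zero => simp [hi, lo_zero, r, top]
  | succ k ih => exact (D.hi_succ_le e hk).trans (ih (by omega))

lemma Δ_le_top (e : ℕ → Bool) {k : ℕ} (hk : k < D.n) : D.Δ e k ≤ D.top :=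
  (D.Δ_le_hi e hk).trans (D.hi_le_top e hk.le)

lemma hi_pos (e : ℕ → Bool) (k : ℕ) : 0 < D.hi e k := by
  have := D.lo_pos e k
  have := D.one_le_r k
  unfold hi; positivity

lemma top_pos : 0 < D.top := (D.hi_pos (fun _ => true) 0).trans_le (D.hi_le_top _ (Nat.zero_le _))

lemma lo_le_top (e : ℕ → Bool) {k : ℕ} (hk : k ≤ D.n) : D.lo e k ≤ D.top := by
  have h := D.hi_le_top e hk
  have := D.lo_pos e k
  have := D.one_le_r k
  unfold hi at h
  nlinarith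

lemma lo_congr {e e' : ℕ → Bool} {k : ℕ} (h : ∀ t < k, e t = e' t) : D.lo e k = D.lo e' k := by
  unfold lo
  congr 1
  exact prod_congr rfl fun t ht => by rw [h t (mem_range.1 ht)]

lemma Δ_congr {e e' : ℕ → Bool} {k : ℕ} (h : ∀ t < k, e t = e' t) : D.Δ e k = D.Δ e' k := by
  unfold Δ; rw [D.lo_congr h]

lemma Δ_update (e : ℕ → Bool) {j k : ℕ} (hk : k ≤ j) (b : Bool) :
    D.Δ (Function.update e j b) k = D.Δ e k :=
  D.Δ_congr fun t ht => Function.update_of_ne (by omega) _ _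

/-- After a critical position all later scales are larger. -/
lemma Δ_le_lo {e : ℕ → Bool} {j k : ℕ} (hj : e j = true) (hk : j < k) : D.Δ e j ≤ D.lo e k := by
  have h := D.lo_mono e (show j + 1 ≤ k from hk)
  rw [lo_succ, if_pos hj] at h
  exact h

lemma four_Δ_le_gap (e : ℕ → Bool) {k : ℕ} (hk : k < D.n) :
    4 * D.Δ e k ≤ D.μ ^ k * D.hi e k := by
  have h1 : D.μ ^ D.n ≤ D.μ ^ k := pow_le_pow_of_le_one D.μ_pos.le D.μ_le hk.le
  have h2 := D.M_Δ_le_hi e hk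
  have h3 := D.M_big
  have h4 := D.four_le_Δ e k
  have h5 := D.four_le_M
  have h6 : 0 < D.μ ^ k := pow_pos D.μ_pos _
  calc 4 * D.Δ e k ≤ (D.μ ^ D.n * D.M) * D.Δ e k := by gcongr
    _ ≤ (D.μ ^ k * D.M) * D.Δ e k := by gcongr
    _ = D.μ ^ k * (D.M * D.Δ e k) := by ring
    _ ≤ _ := by gcongr

end Data

end Vale.Agent.P072
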